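import Mathlib

/-!
# The partition lemma

A family `𝓛` of sets with a guarded first-moment bound `∑ B, r ^ |B \ T| ≤ ψ`.  The sums over `k`-subsets
of the family of `r ^ |union|` are at most `ψ ^ k / k!`; a uniformly random colouring with `P` colours
keeps a `P ^ (1 - k)` proportion on the monochromatic `k`-subsets.
-/

namespace Vale.Agent.Lib.P034Univ

open Finset
open scoped Nat
open Classical

set_option linter.unusedSectionVars false

variable {X : Type*} [Fintype X] [DecidableEq X]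

/-- The union of a family. -/
def bigU (A : Finset (Finset X)) : Finset X := A.biUnion id

lemma mem_bigU {A : Finset (Finset X)} {a : X} : a ∈ bigU A ↔ ∃ B ∈ A, a ∈ B := by
  simp [bigU]

lemma bigU_subset {A : Finset (Finset X)} {H : Finset X} (h : ∀ B ∈ A, B ⊆ H) : bigU A ⊆ H := by
  intro a ha
  obtain ⟨B, hB, haB⟩ := mem_bigU.1 ha
  exact h B hB haB

lemma subset_bigU {A : Finset (Finset X)} {B : Finset X} (h : B ∈ A) : B ⊆ bigU A := by
  intro a ha
  exact mem_bigU.2 ⟨B, h, ha⟩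

lemma card_bigU_le {A : Finset (Finset X)} {b : ℕ} (h : ∀ B ∈ A, B.card ≤ b) :
    (bigU A).card ≤ A.card * b := by
  unfold bigU
  refine (card_biUnion_le).trans ?_
  calc ∑ B ∈ A, (id B).card ≤ ∑ _B ∈ A, b := sum_le_sum fun B hB => h B hB
    _ = A.card * b := by simp

/-- `A` is good if no subfamily has a forbidden union (together with the base `W`). -/
def Good (W : Finset X) (Core : Finset X → Prop) (A : Finset (Finset X)) : Prop :=
  ∀ A' ⊆ A, ¬ Core (W ∪ bigU A')

/-- The sum over good `l`-subsets. -/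
noncomputable def aSum (W : Finset X) (Core : Finset X → Prop) (𝓛 : Finset (Finset X)) (r : ℝ)
    (l : ℕ) : ℝ :=
  ∑ A ∈ (powersetCard l 𝓛).filter (Good W Core), r ^ (bigU A \ W).card

lemma aSum_nonneg (W : Finset X) (Core : Finset X → Prop) (𝓛 : Finset (Finset X)) {r : ℝ}
    (hr0 : 0 ≤ r) (l : ℕ) : 0 ≤ aSum W Core 𝓛 r l :=
  sum_nonneg fun _ _ => by positivity

lemma card_sdiff_insert (W : Finset X) (E : Finset (Finset X)) (B : Finset X) :
    (bigU (insert B E) \ W).card = (bigU E \ W).card + (B \ (W ∪ bigU E)).card := by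
  have h1 : bigU (insert B E) \ W = (bigU E \ W) ∪ (B \ (W ∪ bigU E)) := by
    ext a
    simp only [mem_sdiff, mem_bigU, mem_insert, mem_union, exists_eq_or_imp]
    by_cases h1 : a ∈ B <;> by_cases h2 : (∃ B' ∈ E, a ∈ B') <;> by_cases h3 : a ∈ W <;>
      simp [h1, h2, h3]
  rw [h1, card_union_of_disjoint]
  rw [Finset.disjoint_left]
  intro a ha hb
  simp only [mem_sdiff, mem_union, not_or] at ha hb
  exact hb.2.2 ha.1

lemma aSum_step (W : Finset X) (Core : Finset X → Prop) (𝓛 : Finset (Finset X)) {r : ℝ}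
    (hr0 : 0 ≤ r) {ψ : ℝ} (hψ : 0 ≤ ψ)
    (hguard : ∀ T, W ⊆ T → ¬ Core T → ∑ B ∈ 𝓛, r ^ (B \ T).card ≤ ψ) (l : ℕ) :
    ((l : ℝ) + 1) * aSum W Core 𝓛 r (l + 1) ≤ aSum W Core 𝓛 r l * ψ := by
  set dom : Finset (Σ _ : Finset (Finset X), Finset X) :=
    ((powersetCard (l + 1) 𝓛).filter (Good W Core)).sigma (fun A' => A') with hdom
  set cod : Finset (Σ _ : Finset (Finset X), Finset X) :=
    ((powersetCard l 𝓛).filter (Good W Core)).sigma (fun _ => 𝓛) with hcod
  set e : (Σ _ : Finset (Finset X), Finset X) → (Σ _ : Finset (Finset X), Finset X) :=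
    fun p => ⟨p.1.erase p.2, p.2⟩ with he
  set G : (Σ _ : Finset (Finset X), Finset X) → ℝ :=
    fun q => r ^ (bigU q.1 \ W).card * r ^ (q.2 \ (W ∪ bigU q.1)).card with hG
  have h1 : ((l : ℝ) + 1) * aSum W Core 𝓛 r (l + 1) = ∑ p ∈ dom, G (e p) := by
    rw [hdom, sum_sigma, aSum, mul_sum]
    refine sum_congr rfl fun A' hA' => ?_
    have hc : A'.card = l + 1 := (mem_powersetCard.1 (mem_filter.1 hA').1).2
    have h2 : ∀ B ∈ A', G (e ⟨A', B⟩) = r ^ (bigU A' \ W).card := by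
      intro B hB
      simp only [hG, he]
      rw [← pow_add, ← card_sdiff_insert, insert_erase hB]
    rw [sum_congr rfl h2, sum_const, hc]
    simp
  have hinj : Set.InjOn e (dom : Set (Σ _ : Finset (Finset X), Finset X)) := by
    rintro ⟨A1, B1⟩ h1' ⟨A2, B2⟩ h2' heq
    have hB1 : B1 ∈ A1 := by
      have := mem_coe.1 h1'
      rw [hdom, mem_sigma] at this
      exact this.2
    have hB2 : B2 ∈ A2 := by
      have := mem_coe.1 h2'
      rw [hdom, mem_sigma] at this
      exact this.2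
    simp only [he, Sigma.mk.injEq, heq_eq_eq] at heq
    obtain ⟨h3, h4⟩ := heq
    subst h4
    have : A1 = A2 := by
      rw [← insert_erase hB1, h3, insert_erase hB2]
    subst this
    rfl
  have h2 : ∑ p ∈ dom, G (e p) = ∑ q ∈ dom.image e, G q := (sum_image hinj).symm
  have hsub : dom.image e ⊆ cod := by
    intro q hq
    obtain ⟨⟨A', B⟩, hp, rfl⟩ := mem_image.1 hq
    rw [hdom, mem_sigma] at hp
    obtain ⟨hA', hB⟩ := hp
    simp only at hA' hB
    obtain ⟨hA1, hA2⟩ := mem_filter.1 hA'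
    obtain ⟨hA3, hA4⟩ := mem_powersetCard.1 hA1
    rw [hcod, mem_sigma]
    refine ⟨mem_filter.2 ⟨mem_powersetCard.2 ⟨(erase_subset _ _).trans hA3, ?_⟩, ?_⟩, hA3 hB⟩
    · simp only [he]
      rw [card_erase_of_mem hB, hA4]
      rfl
    · intro A'' hA''
      exact hA2 A'' (hA''.trans (erase_subset _ _))
  have h3 : ∑ q ∈ dom.image e, G q ≤ ∑ q ∈ cod, G q :=
    sum_le_sum_of_subset_of_nonneg hsub fun q _ _ => by
      simp only [hG]
      positivity
  have h4 : ∑ q ∈ cod, G q ≤ aSum W Core 𝓛 r l * ψ := by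
    rw [hcod, sum_sigma, aSum, sum_mul]
    refine sum_le_sum fun A hA => ?_
    simp only [hG]
    rw [← mul_sum]
    have hgood := (mem_filter.1 hA).2
    have hcore : ¬ Core (W ∪ bigU A) := hgood A (Subset.refl _)
    exact mul_le_mul_of_nonneg_left (hguard _ subset_union_left hcore) (by positivity)
  rw [h1, h2]
  exact h3.trans h4

lemma aSum_le (W : Finset X) (Core : Finset X → Prop) (𝓛 : Finset (Finset X)) {r : ℝ}
    (hr0 : 0 ≤ r) {ψ : ℝ} (hψ : 0 ≤ ψ)
    (hguard : ∀ T, W ⊆ T → ¬ Core T → ∑ B ∈ 𝓛, r ^ (B \ T).card ≤ ψ) (l : ℕ) :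
    aSum W Core 𝓛 r l * (l ! : ℝ) ≤ ψ ^ l := by
  induction l with
  | zero =>
    simp only [Nat.factorial_zero, Nat.cast_one, mul_one, pow_zero]
    unfold aSum
    rw [powersetCard_zero]
    refine (sum_le_sum_of_subset_of_nonneg (filter_subset _ _) fun _ _ _ => by positivity).trans ?_
    simp [bigU]
  | succ l ih =>
    have h := aSum_step W Core 𝓛 hr0 hψ hguard l
    rw [Nat.factorial_succ]
    push_cast
    have hf : (0 : ℝ) ≤ (l ! : ℝ) := Nat.cast_nonneg _
    calc aSum W Core 𝓛 r (l + 1) * (((l : ℝ) + 1) * (l ! : ℝ))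
        = ((l : ℝ) + 1) * aSum W Core 𝓛 r (l + 1) * (l ! : ℝ) := by ring
      _ ≤ aSum W Core 𝓛 r l * ψ * (l ! : ℝ) := mul_le_mul_of_nonneg_right h hf
      _ = (aSum W Core 𝓛 r l * (l ! : ℝ)) * ψ := by ring
      _ ≤ ψ ^ l * ψ := mul_le_mul_of_nonneg_right ih hψ
      _ = ψ ^ (l + 1) := by ring

/-- `A` is monochromatic. -/
def Mono {P : ℕ} (π : Finset X → Fin P) (A : Finset (Finset X)) : Prop :=
  ∃ c, ∀ B ∈ A, π B = c

/-- Number of colourings with prescribed colour on `A`. -/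
lemma card_colorings {P : ℕ} (A : Finset (Finset X)) (c : Fin P) :
    ((univ : Finset (Finset X → Fin P)).filter (fun π => ∀ B ∈ A, π B = c)).card =
      P ^ (Fintype.card (Finset X) - A.card) := by
  have h1 : (univ : Finset (Finset X → Fin P)).filter (fun π => ∀ B ∈ A, π B = c) =
      Fintype.piFinset (fun B => if B ∈ A then {c} else univ) := by
    ext π
    simp only [mem_filter, mem_univ, true_and, Fintype.mem_piFinset]
    constructor
    · intro h B
      split_ifs with hB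
      · simp [h B hB]
      · simp
    · intro h B hB
      have := h B
      rw [if_pos hB] at this
      simpa using this
  rw [h1, Fintype.card_piFinset]
  have h2 : ∀ B : Finset X, ((if B ∈ A then {c} else univ : Finset (Fin P))).card =
      if B ∈ A then 1 else P := by
    intro B
    split_ifs <;> simp
  simp_rw [h2]
  rw [Finset.prod_ite]
  simp only [prod_const_one, one_mul, prod_const]
  congr 1
  have h3 : (univ.filter (fun B : Finset X => B ∉ A)) = Aᶜ := by
    ext B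
    simp
  rw [h3, card_compl]

lemma exists_coloring {k : ℕ} (hk : 1 ≤ k) {P : ℕ} (hP : 1 ≤ P)
    (𝔸 : Finset (Finset (Finset X))) (hcard : ∀ A ∈ 𝔸, A.card = k)
    (w : Finset (Finset X) → ℝ) (hw : ∀ A, 0 ≤ w A) :
    ∃ π : Finset X → Fin P, ∑ A ∈ 𝔸.filter (Mono π), w A ≤ (∑ A ∈ 𝔸, w A) / (P : ℝ) ^ (k - 1) := by
  classical
  haveI : Nonempty (Fin P) := ⟨⟨0, by omega⟩⟩
  set m := Fintype.card (Finset X) with hm
  have hP0 : (0 : ℝ) < P := by exact_mod_cast hP
  -- count of monochromatic colourings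
  have hcount : ∀ A ∈ 𝔸, (((univ : Finset (Finset X → Fin P)).filter (fun π => Mono π A)).card : ℝ)
      * (P : ℝ) ^ (k - 1) ≤ (P : ℝ) ^ m := by
    intro A hA
    have hAk := hcard A hA
    have hkm : k ≤ m := by
      rw [← hAk, hm]
      exact card_le_univ A
    have h1 : (univ : Finset (Finset X → Fin P)).filter (fun π => Mono π A) ⊆
        (univ : Finset (Fin P)).biUnion
          (fun c => (univ : Finset (Finset X → Fin P)).filter (fun π => ∀ B ∈ A, π B = c)) := by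
      intro π hπ
      obtain ⟨c, hc⟩ := (mem_filter.1 hπ).2
      exact mem_biUnion.2 ⟨c, mem_univ _, mem_filter.2 ⟨mem_univ _, hc⟩⟩
    have h2 : ((univ : Finset (Finset X → Fin P)).filter (fun π => Mono π A)).card ≤
        P * P ^ (m - k) := by
      refine (card_le_card h1).trans (card_biUnion_le.trans ?_)
      simp_rw [card_colorings, hAk]
      rw [sum_const, card_univ, Fintype.card_fin, smul_eq_mul]
    have h3 : ((((univ : Finset (Finset X → Fin P)).filter (fun π => Mono π A)).card : ℕ) : ℝ) ≤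
        (P : ℝ) * (P : ℝ) ^ (m - k) := by
      exact_mod_cast h2
    calc (((univ : Finset (Finset X → Fin P)).filter (fun π => Mono π A)).card : ℝ)
          * (P : ℝ) ^ (k - 1)
        ≤ ((P : ℝ) * (P : ℝ) ^ (m - k)) * (P : ℝ) ^ (k - 1) :=
          mul_le_mul_of_nonneg_right h3 (by positivity)
      _ = (P : ℝ) ^ m := by
          rw [← pow_succ', ← pow_add]
          congr 1
          omega
  have hcardπ : ((univ : Finset (Finset X → Fin P)).card : ℝ) = (P : ℝ) ^ m := by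
    rw [card_univ, Fintype.card_fun, Fintype.card_fin]
    push_cast
    rfl
  have hsum : ∑ π : Finset X → Fin P, ∑ A ∈ 𝔸.filter (Mono π), w A ≤
      ∑ _π : Finset X → Fin P, (∑ A ∈ 𝔸, w A) / (P : ℝ) ^ (k - 1) := by
    rw [sum_const, nsmul_eq_mul, hcardπ]
    have h5 : ∑ π : Finset X → Fin P, ∑ A ∈ 𝔸.filter (Mono π), w A =
        ∑ A ∈ 𝔸, ((univ : Finset (Finset X → Fin P)).filter (fun π => Mono π A)).card * w A := by
      simp_rw [sum_filter]
      rw [sum_comm]
      refine sum_congr rfl fun A _ => ?_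
      rw [← sum_filter, sum_const, nsmul_eq_mul]
    rw [h5, mul_div_assoc', le_div_iff₀ (by positivity), sum_mul, mul_sum]
    refine sum_le_sum fun A hA => ?_
    have := mul_le_mul_of_nonneg_right (hcount A hA) (hw A)
    calc ((univ.filter (fun π => Mono π A)).card : ℝ) * w A * (P : ℝ) ^ (k - 1)
        = ((univ.filter (fun π => Mono π A)).card : ℝ) * (P : ℝ) ^ (k - 1) * w A := by ring
      _ ≤ (P : ℝ) ^ m * w A := this
  obtain ⟨π, _, hπ⟩ := exists_le_of_sum_le (s := (univ : Finset (Finset X → Fin P)))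
    univ_nonempty hsum
  exact ⟨π, hπ⟩

/-- **The partition lemma.**  Under a guarded first-moment bound, there is a cheap family `𝒢` such that
every `H ⊇ W` containing at least `k * P` members of `𝓛` contains either a member of `𝒢` or the union
of at most `k` members of `𝓛` (with `W`) which is forbidden. -/
theorem core_lemma (W : Finset X) (𝓛 : Finset (Finset X)) (Core : Finset X → Prop) {r : ℝ}
    (hr0 : 0 ≤ r) {ψ : ℝ} (hψ : 0 ≤ ψ)
    (hguard : ∀ T, W ⊆ T → ¬ Core T → ∑ B ∈ 𝓛, r ^ (B \ T).card ≤ ψ)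
    {k : ℕ} (hk : 1 ≤ k) {P : ℕ} (hP : 1 ≤ P) :
    ∃ 𝒢 : Finset (Finset X), (∀ G ∈ 𝒢, W ⊆ G) ∧
      ∑ G ∈ 𝒢, r ^ (G \ W).card ≤ (ψ ^ k / (k ! : ℝ)) / (P : ℝ) ^ (k - 1) ∧
      ∀ H, W ⊆ H → k * P ≤ (𝓛.filter (· ⊆ H)).card →
        (∃ G ∈ 𝒢, G ⊆ H) ∨
        ∃ A ⊆ 𝓛, A.card ≤ k ∧ Core (W ∪ bigU A) ∧ W ∪ bigU A ⊆ H := by
  set 𝔸 := (powersetCard k 𝓛).filter (Good W Core) with h𝔸
  obtain ⟨π, hπ⟩ := exists_coloring hk hP 𝔸
    (fun A hA => (mem_powersetCard.1 (mem_filter.1 hA).1).2)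
    (fun A => r ^ (bigU A \ W).card) (fun A => by positivity)
  refine ⟨(𝔸.filter (Mono π)).image (fun A => W ∪ bigU A), ?_, ?_, ?_⟩
  · intro G hG
    obtain ⟨A, _, rfl⟩ := mem_image.1 hG
    exact subset_union_left
  · refine (sum_image_le_of_nonneg fun _ _ => by positivity).trans ?_
    have h1 : ∀ A ∈ 𝔸.filter (Mono π), r ^ ((W ∪ bigU A) \ W).card = r ^ (bigU A \ W).card := by
      intro A _
      rw [union_sdiff_left]
    rw [sum_congr rfl h1]
    refine hπ.trans ?_
    have hP0 : (0 : ℝ) < P := by exact_mod_cast hP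
    apply div_le_div_of_nonneg_right _ (by positivity)
    have hf : (0 : ℝ) < (k ! : ℝ) := by exact_mod_cast Nat.factorial_pos k
    rw [le_div_iff₀ hf]
    exact aSum_le W Core 𝓛 hr0 hψ hguard k
  · intro H hWH hcard
    haveI : Nonempty (Fin P) := ⟨⟨0, by omega⟩⟩
    obtain ⟨c, _, hc⟩ := exists_le_card_fiber_of_mul_le_card_of_maps_to
      (s := 𝓛.filter (· ⊆ H)) (t := (univ : Finset (Fin P))) (f := π) (n := k)
      (fun _ _ => mem_univ _) univ_nonempty (by simpa [mul_comm] using hcard)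
    obtain ⟨A, hA, hAk⟩ := exists_subset_card_eq hc
    have hA𝓛 : A ⊆ 𝓛 := fun B hB => (mem_filter.1 (mem_filter.1 (hA hB)).1).1
    have hAH : ∀ B ∈ A, B ⊆ H := fun B hB => (mem_filter.1 (mem_filter.1 (hA hB)).1).2
    by_cases hgood : Good W Core A
    · left
      refine ⟨W ∪ bigU A, ?_, union_subset hWH (bigU_subset hAH)⟩
      refine mem_image.2 ⟨A, mem_filter.2 ⟨mem_filter.2 ⟨mem_powersetCard.2 ⟨hA𝓛, hAk⟩, hgood⟩,
        c, fun B hB => (mem_filter.1 (hA hB)).2⟩, rfl⟩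
    · right
      unfold Good at hgood
      push Not at hgood
      obtain ⟨A', hA', hcore⟩ := hgood
      exact ⟨A', hA'.trans hA𝓛, (card_le_card hA').trans hAk.le, hcore,
        union_subset hWH (bigU_subset fun B hB => hAH B (hA' hB))⟩

/-- `k ^ k ≤ 3 ^ k * k!`. -/
lemma pow_self_le (k : ℕ) : (k : ℝ) ^ k ≤ 3 ^ k * (k ! : ℝ) := by
  have h1 := Real.pow_div_factorial_le_exp (k : ℝ) (Nat.cast_nonneg k) k
  have hf : (0 : ℝ) < (k ! : ℝ) := by exact_mod_cast Nat.factorial_pos k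
  rw [div_le_iff₀ hf] at h1
  refine h1.trans (mul_le_mul_of_nonneg_right ?_ hf.le)
  have h2 : Real.exp (k : ℝ) = Real.exp 1 ^ k := by
    rw [← Real.exp_nat_mul, mul_one]
  rw [h2]
  exact pow_le_pow_left₀ (Real.exp_pos 1).le Real.exp_one_lt_three.le k

/-- The numeric form of the partition bound. -/
lemma core_bound {ψ : ℝ} (hψ : 0 ≤ ψ) {k : ℕ} (hk : 1 ≤ k) {P : ℕ} (hP : 1 ≤ P) :
    (ψ ^ k / (k ! : ℝ)) / (P : ℝ) ^ (k - 1) ≤ P * (3 * ψ / (k * P)) ^ k := by
  have hP0 : (0 : ℝ) < P := by exact_mod_cast hP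
  have hk0 : (0 : ℝ) < k := by exact_mod_cast hk
  have hf : (0 : ℝ) < (k ! : ℝ) := by exact_mod_cast Nat.factorial_pos k
  have h1 := pow_self_le k
  have hPk : (P : ℝ) ^ k = P ^ (k - 1) * P := by
    rw [← pow_succ]
    congr 1
    omega
  have hP1 : (0 : ℝ) < (P : ℝ) ^ (k - 1) := by positivity
  have hk1 : (0 : ℝ) < (k : ℝ) ^ k := by positivity
  have h3 : 1 / (k ! : ℝ) ≤ 3 ^ k / (k : ℝ) ^ k := by
    rw [div_le_div_iff₀ hf hk1]
    linarith
  have h4 : ψ ^ k / (k ! : ℝ) ≤ ψ ^ k * (3 ^ k / (k : ℝ) ^ k) := by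
    rw [div_eq_mul_one_div]
    exact mul_le_mul_of_nonneg_left h3 (by positivity)
  have h5 : (P : ℝ) * (3 * ψ / (k * P)) ^ k = (ψ ^ k * (3 ^ k / (k : ℝ) ^ k)) / (P : ℝ) ^ (k - 1) := by
    rw [div_pow, mul_pow, mul_pow, hPk]
    field_simp
  rw [h5]
  exact div_le_div_of_nonneg_right h4 hP1.le

end Vale.Agent.Lib.P034Univ
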