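import Vale.Agent.Lib.P034Univ.Stage

/-!
# The descent on the size of the sets
-/

namespace Vale.Agent.Lib.P034Univ

open Finset
open scoped Nat
open Classical

set_option linter.unusedSectionVars false
set_option linter.unusedVariables false

variable {X : Type*} [Fintype X] [DecidableEq X]

/-- The dyadic class of a positive number. -/
noncomputable def cls (v : ℝ) : ℕ :=
  if h : ∃ a : ℕ, 1 / (2 : ℝ) ^ (a + 1) < v then Nat.find h else 0

lemma cls_exists {v : ℝ} (hv : 0 < v) : ∃ a : ℕ, 1 / (2 : ℝ) ^ (a + 1) < v := by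
  obtain ⟨n, hn⟩ := exists_pow_lt_of_lt_one hv (show (1 / 2 : ℝ) < 1 by norm_num)
  refine ⟨n, lt_of_le_of_lt ?_ hn⟩
  rw [one_div_pow]
  apply one_div_le_one_div_of_le (by positivity)
  exact pow_le_pow_right₀ (by norm_num) (by omega)

lemma cls_spec {v : ℝ} (hv : 0 < v) : 1 / (2 : ℝ) ^ (cls v + 1) < v := by
  unfold cls
  rw [dif_pos (cls_exists hv)]
  exact Nat.find_spec (cls_exists hv)

lemma cls_le {v : ℝ} (hv : 0 < v) (h : cls v ≠ 0) : v ≤ 1 / (2 : ℝ) ^ cls v := by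
  have hc : cls v = Nat.find (cls_exists hv) := by
    unfold cls
    rw [dif_pos (cls_exists hv)]
  have hlt : cls v - 1 < Nat.find (cls_exists hv) := by
    rw [← hc]
    omega
  have h1 := Nat.find_min (cls_exists hv) hlt
  push Not at h1
  have h2 : cls v - 1 + 1 = cls v := by omega
  rw [h2] at h1
  exact h1

lemma sum_geom_le (s : Finset ℕ) : ∑ a ∈ s, 1 / (2 : ℝ) ^ a ≤ 2 := by
  obtain ⟨n, hn⟩ : ∃ n, s ⊆ range n := ⟨s.sup id + 1, fun a ha => by
    have : a ≤ s.sup id := le_sup (f := id) ha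
    exact mem_range.2 (by omega)⟩
  have h1 : ∑ a ∈ s, 1 / (2 : ℝ) ^ a ≤ ∑ a ∈ range n, 1 / (2 : ℝ) ^ a :=
    sum_le_sum_of_subset_of_nonneg hn fun _ _ _ => by positivity
  refine h1.trans ?_
  have h2 : ∀ m : ℕ, ∑ a ∈ range m, 1 / (2 : ℝ) ^ a = 2 - 2 / 2 ^ m := by
    intro m
    induction m with
    | zero => simp
    | succ m ih =>
      rw [sum_range_succ, ih, pow_succ]
      field_simp
      ring
  rw [h2]
  have : (0 : ℝ) < 2 / 2 ^ n := by positivity
  linarith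

lemma sum_inv_sq_le (s : Finset ℕ) : ∑ a ∈ s, 1 / ((a : ℝ) + 1) ^ 2 ≤ 2 := by
  obtain ⟨n, hn⟩ : ∃ n, s ⊆ range n := ⟨s.sup id + 1, fun a ha => by
    have : a ≤ s.sup id := le_sup (f := id) ha
    exact mem_range.2 (by omega)⟩
  have h1 : ∑ a ∈ s, 1 / ((a : ℝ) + 1) ^ 2 ≤ ∑ a ∈ range n, 1 / ((a : ℝ) + 1) ^ 2 :=
    sum_le_sum_of_subset_of_nonneg hn fun _ _ _ => by positivity
  refine h1.trans ?_
  have h2 : ∀ m : ℕ, ∑ a ∈ range (m + 1), 1 / ((a : ℝ) + 1) ^ 2 ≤ 2 - 1 / ((m : ℝ) + 1) := by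
    intro m
    induction m with
    | zero => simp; norm_num
    | succ m ih =>
      rw [sum_range_succ]
      push_cast
      have hm : (0 : ℝ) ≤ m := Nat.cast_nonneg m
      have h3 : 1 / ((m : ℝ) + 1 + 1) ^ 2 ≤ 1 / ((m : ℝ) + 1) - 1 / ((m : ℝ) + 1 + 1) := by
        rw [div_sub_div _ _ (by positivity) (by positivity),
          div_le_div_iff₀ (by positivity) (by positivity)]
        nlinarith
      linarith
  cases n with
  | zero => simp
  | succ m =>
    have := h2 m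
    have h3 : (0 : ℝ) ≤ 1 / ((m : ℝ) + 1) := by positivity
    linarith

/-- **One size.** -/
theorem stage {x : ℝ} (hx0 : 0 < x) (hx1 : x ≤ 1) {u : ℕ} (hu : 1 ≤ u) (h : Finset X → ℝ)
    (h0 : ∀ S, 0 ≤ h S) (W : ℝ) (hW : W = ∑ S ∈ univ.filter (fun S : Finset X => S.card = u),
      h S * x ^ u) (hw : W ≤ 1 / 2) :
    ∃ (y : Finset X → ℝ) (𝒢 : Finset (Finset X)),
      (∀ U, 0 ≤ y U) ∧ (∀ U, y U ≠ 0 → U ≠ ∅ ∧ U.card < u) ∧
      ∑ U, y U * x ^ U.card ≤ W ∧
      ∑ G ∈ 𝒢, (x / 2 ^ 320) ^ G.card ≤ 1 / 2 ^ (u + 2) ∧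
      ∀ H, (∀ G ∈ 𝒢, ¬ G ⊆ H) → ∑ S ∈ H.powerset.filter (fun S => S.card = u), h S ≤
        3 / 2 ^ (u + 3) + ∑ U ∈ H.powerset, y U := by
  have hxu : 0 < x ^ u := by positivity
  set 𝓤 : Finset (Finset X) := (univ.filter (fun S : Finset X => S.card = u)).filter (fun S => 0 < h S)
    with h𝓤
  set 𝓢 : ℕ → Finset (Finset X) := fun a => 𝓤.filter (fun S => cls (h S) = a) with h𝓢
  set I : Finset ℕ := 𝓤.image (fun S => cls (h S)) with hI
  have hS𝓤 : ∀ a, ∀ S ∈ 𝓢 a, S ∈ 𝓤 := fun a S hS => (mem_filter.1 hS).1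
  have hScard : ∀ a, ∀ S ∈ 𝓢 a, S.card = u := fun a S hS =>
    (mem_filter.1 (mem_filter.1 (hS𝓤 a S hS)).1).2
  have hSpos : ∀ a, ∀ S ∈ 𝓢 a, 0 < h S := fun a S hS => (mem_filter.1 (hS𝓤 a S hS)).2
  have hScls : ∀ a, ∀ S ∈ 𝓢 a, cls (h S) = a := fun a S hS => (mem_filter.1 hS).2
  set M : ℕ → ℝ := fun a => ((𝓢 a).card : ℝ) * x ^ u / 2 ^ a with hM
  have hM0 : ∀ a, 0 ≤ M a := fun a => by
    simp only [hM]
    positivity
  -- each class is at most twice its share
  have hMle : ∀ a, M a ≤ 2 * ∑ S ∈ 𝓢 a, h S * x ^ u := by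
    intro a
    have h1 : ∀ S ∈ 𝓢 a, x ^ u / 2 ^ a ≤ 2 * (h S * x ^ u) := by
      intro S hS
      have h2 := cls_spec (hSpos a S hS)
      rw [hScls a S hS] at h2
      have h3 : 1 / (2 : ℝ) ^ a ≤ 2 * h S := by
        rw [pow_succ] at h2
        have h4 : 1 / ((2 : ℝ) ^ a * 2) = (1 / 2 ^ a) / 2 := by
          field_simp
        rw [h4] at h2
        linarith
      calc x ^ u / 2 ^ a = 1 / 2 ^ a * x ^ u := by ring
        _ ≤ 2 * h S * x ^ u := mul_le_mul_of_nonneg_right h3 hxu.le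
        _ = 2 * (h S * x ^ u) := by ring
    have h2 := sum_le_sum h1
    rw [sum_const, nsmul_eq_mul, ← mul_sum] at h2
    calc M a = ((𝓢 a).card : ℝ) * (x ^ u / 2 ^ a) := by
          simp only [hM]
          ring
      _ ≤ 2 * ∑ S ∈ 𝓢 a, h S * x ^ u := h2
  have hW𝓤 : ∑ S ∈ 𝓤, h S * x ^ u ≤ W := by
    rw [hW]
    apply sum_le_sum_of_subset_of_nonneg (filter_subset _ _)
    intro S _ _
    exact mul_nonneg (h0 S) hxu.le
  have hMsum : ∑ a ∈ I, M a ≤ 2 * W := by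
    have h1 : ∑ a ∈ I, ∑ S ∈ 𝓢 a, h S * x ^ u = ∑ S ∈ 𝓤, h S * x ^ u :=
      sum_fiberwise_of_maps_to (fun S hS => mem_image_of_mem _ hS) _
    have h2 : ∑ a ∈ I, M a ≤ ∑ a ∈ I, 2 * ∑ S ∈ 𝓢 a, h S * x ^ u := sum_le_sum fun a _ => hMle a
    rw [← mul_sum, h1] at h2
    linarith
  have hMa1 : ∀ a, ((𝓢 a).card : ℝ) * x ^ u / 2 ^ a ≤ 1 := by
    intro a
    have h1 := hMle a
    have h2 : ∑ S ∈ 𝓢 a, h S * x ^ u ≤ ∑ S ∈ 𝓤, h S * x ^ u :=
      sum_le_sum_of_subset_of_nonneg (filter_subset _ _) fun S _ _ => mul_nonneg (h0 S) hxu.le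
    have h3 : M a ≤ 1 := by linarith
    exact h3
  have hstep := fun a => class_step hx0 hx1 hu a (𝓢 a) (hScard a) (hMa1 a)
  choose y 𝒢 hy0 hysupp hycost h𝒢cost hmass hzero using hstep
  refine ⟨fun U => ∑ a ∈ I, y a U, I.biUnion 𝒢, ?_, ?_, ?_, ?_, ?_⟩
  · intro U
    exact sum_nonneg fun a _ => hy0 a U
  · intro U hU
    obtain ⟨a, _, ha⟩ := exists_ne_zero_of_sum_ne_zero hU
    exact hysupp a U ha
  · -- the cost of the new weights
    have h1 : ∑ U, (∑ a ∈ I, y a U) * x ^ U.card = ∑ a ∈ I, ∑ U, y a U * x ^ U.card := by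
      simp_rw [sum_mul]
      rw [sum_comm]
    rw [h1]
    have h2 : ∑ a ∈ I, ∑ U, y a U * x ^ U.card ≤ ∑ a ∈ I, M a / 2 := sum_le_sum fun a _ => hycost a
    refine h2.trans ?_
    rw [← sum_div]
    linarith
  · -- the cost of the family
    refine (sum_biUnion_le' _ _ _ fun G => by positivity).trans ?_
    have h1 : ∑ a ∈ I, ∑ G ∈ 𝒢 a, (x / 2 ^ 320) ^ G.card ≤
        ∑ a ∈ I, (M a / 2 ^ (100 * u) + 1 / 2 ^ a / 2 ^ (u + 4)) := by
      refine sum_le_sum fun a _ => (h𝒢cost a).trans (le_of_eq ?_)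
      congr 1
      rw [div_div, ← pow_add]
      congr 2
    refine h1.trans ?_
    rw [sum_add_distrib, ← sum_div, ← sum_div]
    have h2 := sum_geom_le I
    have hp1 : (0 : ℝ) < 2 ^ (100 * u) := by positivity
    have hp2 : (0 : ℝ) < 2 ^ (u + 4) := by positivity
    have h3 : (∑ a ∈ I, M a) / 2 ^ (100 * u) ≤ 1 / 2 ^ (u + 3) := by
      rw [div_le_div_iff₀ hp1 (by positivity), one_mul]
      have h4 : (2 : ℝ) ^ (u + 3) ≤ 2 ^ (100 * u) := pow_le_pow_right₀ (by norm_num) (by omega)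
      have h5 : (0 : ℝ) < 2 ^ (u + 3) := by positivity
      nlinarith
    have h4 : (∑ a ∈ I, 1 / (2 : ℝ) ^ a) / 2 ^ (u + 4) ≤ 1 / 2 ^ (u + 3) := by
      rw [div_le_div_iff₀ hp2 (by positivity), one_mul, pow_succ (2 : ℝ) (u + 3)]
      have h5 : (0 : ℝ) < 2 ^ (u + 3) := by positivity
      nlinarith
    have h5 : (1 : ℝ) / 2 ^ (u + 2) = 1 / 2 ^ (u + 3) + 1 / 2 ^ (u + 3) := by
      rw [pow_succ (2 : ℝ) (u + 2)]
      field_simp
      norm_num
    rw [h5]
    exact add_le_add h3 h4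
  · -- the mass
    intro H hH
    have hHa : ∀ a ∈ I, ∀ G ∈ 𝒢 a, ¬ G ⊆ H := fun a ha G hG =>
      hH G (mem_biUnion.2 ⟨a, ha, hG⟩)
    set Hu := H.powerset.filter (fun S => S.card = u) with hHu
    set B := 𝓤.filter (· ⊆ H) with hB
    have h1 : ∑ S ∈ B, h S = ∑ S ∈ Hu, h S := by
      apply sum_subset
      · intro S hS
        obtain ⟨h2, h3⟩ := mem_filter.1 hS
        obtain ⟨h4, _⟩ := mem_filter.1 h2
        exact mem_filter.2 ⟨mem_powerset.2 h3, (mem_filter.1 h4).2⟩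
      · intro S hS hnot
        obtain ⟨h2, h3⟩ := mem_filter.1 hS
        by_contra hne
        apply hnot
        have h4 : 0 < h S := lt_of_le_of_ne (h0 S) (Ne.symm hne)
        exact mem_filter.2 ⟨mem_filter.2 ⟨mem_filter.2 ⟨mem_univ _, h3⟩, h4⟩, mem_powerset.1 h2⟩
    rw [← h1]
    have h2 : ∑ a ∈ I, ∑ S ∈ B.filter (fun S => cls (h S) = a), h S = ∑ S ∈ B, h S :=
      sum_fiberwise_of_maps_to (fun S hS => mem_image_of_mem _ (mem_filter.1 hS).1) _
    rw [← h2]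
    have h3 : ∀ a ∈ I, ∑ S ∈ B.filter (fun S => cls (h S) = a), h S ≤
        (M a + 1 / ((a : ℝ) + 1) ^ 2) / 2 ^ (u + 3) + ∑ U ∈ H.powerset, y a U := by
      intro a ha
      refine le_trans ?_ (hmass a H (hHa a ha))
      have h4 : B.filter (fun S => cls (h S) = a) = (𝓢 a).filter (· ⊆ H) := by
        rw [hB, filter_comm]
      rw [h4]
      by_cases ha0 : a ≤ 160 * u
      · have h5 := hzero a ha0 H (hHa a ha)
        rw [card_eq_zero] at h5
        rw [h5]
        simp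
      · have ha1 : a ≠ 0 := by omega
        have h5 : ∀ S ∈ (𝓢 a).filter (· ⊆ H), h S ≤ 1 / 2 ^ a := by
          intro S hS
          have hS' := (mem_filter.1 hS).1
          have h6 := hScls a S hS'
          have h7 := cls_le (hSpos a S hS') (by rw [h6]; exact ha1)
          rw [h6] at h7
          exact h7
        have h6 := sum_le_sum h5
        rw [sum_const, nsmul_eq_mul] at h6
        refine h6.trans (le_of_eq ?_)
        ring
    refine (sum_le_sum h3).trans ?_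
    rw [sum_add_distrib, ← sum_div, sum_add_distrib]
    have h4 : ∑ a ∈ I, ∑ U ∈ H.powerset, y a U = ∑ U ∈ H.powerset, ∑ a ∈ I, y a U := sum_comm
    rw [h4]
    apply add_le_add _ le_rfl
    apply div_le_div_of_nonneg_right _ (by positivity)
    have h5 := sum_inv_sq_le I
    linarith

/-- **The descent.** -/
theorem descent {x : ℝ} (hx0 : 0 < x) (hx1 : x ≤ 1) (u : ℕ) :
    ∀ g : Finset X → ℝ, (∀ S, 0 ≤ g S) → (∀ S, g S ≠ 0 → S ≠ ∅ ∧ S.card ≤ u) →
      ∑ S, g S * x ^ S.card ≤ 1 / 2 →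
      ∃ 𝒢 : Finset (Finset X),
        ∑ G ∈ 𝒢, (x / 2 ^ 320) ^ G.card ≤ (1 / 4) * (1 - 1 / 2 ^ u) ∧
        ∀ H, (∀ G ∈ 𝒢, ¬ G ⊆ H) → ∑ S ∈ H.powerset, g S ≤ (3 / 8) * (1 - 1 / 2 ^ u) := by
  induction u with
  | zero =>
    intro g _ hsupp _
    refine ⟨∅, by simp, ?_⟩
    intro H _
    have h1 : ∀ S, g S = 0 := by
      intro S
      by_contra hne
      obtain ⟨h2, h3⟩ := hsupp S hne
      exact h2 (card_eq_zero.1 (by omega))
    simp [h1]
  | succ u ih =>
    intro g hg0 hsupp hw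
    have hxn : ∀ n : ℕ, 0 ≤ x ^ n := fun n => by positivity
    set W : ℝ := ∑ S ∈ univ.filter (fun S : Finset X => S.card = u + 1), g S * x ^ (u + 1) with hW
    have hWeq : W = ∑ S, (if S.card = u + 1 then g S * x ^ S.card else 0) := by
      rw [hW, ← sum_filter]
      refine sum_congr rfl fun S hS => ?_
      rw [(mem_filter.1 hS).2]
    have hsplit : ∑ S, g S * x ^ S.card =
        W + ∑ S, (if S.card = u + 1 then 0 else g S) * x ^ S.card := by
      rw [hWeq, ← sum_add_distrib]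
      refine sum_congr rfl fun S _ => ?_
      split_ifs <;> ring
    have hrest : 0 ≤ ∑ S, (if S.card = u + 1 then 0 else g S) * x ^ S.card := by
      refine sum_nonneg fun S _ => ?_
      split_ifs
      · simp
      · exact mul_nonneg (hg0 S) (hxn _)
    have hW12 : W ≤ 1 / 2 := by linarith
    obtain ⟨y, 𝒢₁, hy0, hysupp, hycost, hcost₁, hmass₁⟩ :=
      stage hx0 hx1 (u := u + 1) (by omega) g hg0 W hW hW12
    obtain ⟨𝒢₂, hcost₂, hmass₂⟩ := ih (fun S => (if S.card = u + 1 then 0 else g S) + y S)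
      (by
        intro S
        apply add_nonneg _ (hy0 S)
        split_ifs
        · exact le_rfl
        · exact hg0 S)
      (by
        intro S hS
        by_cases hy : y S = 0
        · rw [hy, add_zero] at hS
          split_ifs at hS with hc
          · exact absurd rfl hS
          · obtain ⟨h1, h2⟩ := hsupp S hS
            exact ⟨h1, by omega⟩
        · obtain ⟨h1, h2⟩ := hysupp S hy
          exact ⟨h1, by omega⟩)
      (by
        simp_rw [add_mul]
        rw [sum_add_distrib]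
        linarith)
    refine ⟨𝒢₁ ∪ 𝒢₂, ?_, ?_⟩
    · refine (sum_union_le' _ _ _ fun G => by positivity).trans ?_
      have h1 : (1 : ℝ) / 4 * (1 - 1 / 2 ^ (u + 1)) =
          1 / 2 ^ (u + 1 + 2) + 1 / 4 * (1 - 1 / 2 ^ u) := by
        rw [pow_succ (2 : ℝ) (u + 1 + 1), pow_succ (2 : ℝ) (u + 1), pow_succ (2 : ℝ) u]
        field_simp
        ring
      rw [h1]
      exact add_le_add hcost₁ hcost₂
    · intro H hH
      have hH₁ : ∀ G ∈ 𝒢₁, ¬ G ⊆ H := fun G hG => hH G (mem_union_left _ hG)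
      have hH₂ : ∀ G ∈ 𝒢₂, ¬ G ⊆ H := fun G hG => hH G (mem_union_right _ hG)
      have h1 := hmass₁ H hH₁
      have h2 := hmass₂ H hH₂
      have h3 : ∑ S ∈ H.powerset, g S =
          ∑ S ∈ H.powerset.filter (fun S => S.card = u + 1), g S +
            ∑ S ∈ H.powerset, (if S.card = u + 1 then 0 else g S) := by
        rw [sum_filter, ← sum_add_distrib]
        refine sum_congr rfl fun S _ => ?_
        split_ifs <;> simp
      rw [sum_add_distrib] at h2
      rw [h3]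
      have h4 : (3 : ℝ) / 8 * (1 - 1 / 2 ^ (u + 1)) =
          3 / 2 ^ (u + 1 + 3) + 3 / 8 * (1 - 1 / 2 ^ u) := by
        rw [pow_succ (2 : ℝ) (u + 1 + 2), pow_succ (2 : ℝ) (u + 1 + 1), pow_succ (2 : ℝ) (u + 1),
          pow_succ (2 : ℝ) u]
        field_simp
        ring
      rw [h4]
      linarith

/-- **Talagrand's conjecture.**  A fractional cover of cost at most `1/2` at `p` gives an integral
cover of cost at most `1/2` at `p / 2 ^ 320`. -/
theorem fractional_to_integral (F : Finset X → Prop) (g : Finset X → ℝ) (p : ℝ)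
    (hg0 : ∀ S, 0 ≤ g S) (hp0 : 0 < p) (hp1 : p ≤ 1)
    (hcover : ∀ H, F H → 1 ≤ ∑ S ∈ H.powerset, g S)
    (hw : ∑ S, g S * p ^ S.card ≤ 1 / 2) :
    ∃ G : Finset (Finset X), (∀ H, F H → ∃ S ∈ G, S ⊆ H) ∧
      ∑ S ∈ G, (p / 2 ^ 320) ^ S.card ≤ 1 / 2 := by
  -- the part of `g` on nonempty sets
  have hempty : g ∅ ≤ 1 / 2 := by
    have h1 : g ∅ * p ^ (∅ : Finset X).card ≤ ∑ S, g S * p ^ S.card :=
      single_le_sum (f := fun S : Finset X => g S * p ^ S.card)
        (fun S _ => mul_nonneg (hg0 S) (by positivity)) (mem_univ _)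
    simp only [card_empty, pow_zero, mul_one] at h1
    linarith
  set g' : Finset X → ℝ := fun S => if S = ∅ then 0 else g S with hg'
  have hg'0 : ∀ S, 0 ≤ g' S := fun S => by
    simp only [hg']
    split_ifs
    · exact le_rfl
    · exact hg0 S
  have hsupp : ∀ S, g' S ≠ 0 → S ≠ ∅ ∧ S.card ≤ Fintype.card X := by
    intro S hS
    refine ⟨fun h => ?_, card_le_univ S⟩
    simp only [hg', h, if_true] at hS
    exact hS rfl
  have hw' : ∑ S, g' S * p ^ S.card ≤ 1 / 2 := by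
    refine le_trans (sum_le_sum fun S _ => ?_) hw
    simp only [hg']
    split_ifs
    · rw [zero_mul]
      exact mul_nonneg (hg0 S) (by positivity)
    · exact le_rfl
  obtain ⟨𝒢, hcost, hmass⟩ := descent hp0 hp1 (Fintype.card X) g' hg'0 hsupp hw'
  have h2 : (0 : ℝ) < 1 / 2 ^ Fintype.card X := by positivity
  refine ⟨𝒢, ?_, ?_⟩
  · intro H hH
    by_contra hcon
    push Not at hcon
    have h1 := hmass H hcon
    have h3 := hcover H hH
    have h4 : ∑ S ∈ H.powerset, g S ≤ g ∅ + ∑ S ∈ H.powerset, g' S := by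
      have h5 : (∅ : Finset X) ∈ H.powerset := by simp
      rw [← add_sum_erase _ _ h5]
      apply add_le_add le_rfl
      have h6 : ∑ S ∈ H.powerset.erase ∅, g S = ∑ S ∈ H.powerset.erase ∅, g' S := by
        refine sum_congr rfl fun S hS => ?_
        simp only [hg']
        rw [if_neg (mem_erase.1 hS).1]
      rw [h6]
      apply sum_le_sum_of_subset_of_nonneg (erase_subset _ _)
      intro S _ _
      exact hg'0 S
    linarith
  · linarith

end Vale.Agent.Lib.P034Univ
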