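import Vale.Agent.Lib.P034.LargeSets

/-!
# Rounding with cost proportional to the fractional cost

A variant of `core_cover`: the cost of the integral cover is bounded by the expression
`2 * l * w(g, 2 r) + 3 * w(g, r)` as soon as this is below `1`.
-/

namespace Vale.Agent.Lib.P034Univ

open Finset Vale.Agent.Lib.P034.LargeSet
open Classical

set_option linter.unusedSectionVars false

variable {X : Type*} [Fintype X] [DecidableEq X]

theorem cover_of_small (F : Finset X → Prop) (hup : ∀ A B, A ⊆ B → F A → F B) (l : ℕ)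
    (hl : ∀ A, F A → ∃ B, B ⊆ A ∧ F B ∧ B.card ≤ l) (g : Finset X → ℝ) (hg0 : ∀ S, 0 ≤ g S)
    (hcover : ∀ H, F H → 1 ≤ ∑ S ∈ H.powerset, g S) (r : ℝ) (hr0 : 0 ≤ r) (hr1 : r ≤ 1)
    (E : ℝ) (hE : 2 * (l : ℝ) * ∑ S, g S * (2 * r) ^ S.card + 3 * ∑ S, g S * r ^ S.card ≤ E)
    (hE1 : E < 1) :
    ∃ G : Finset (Finset X), (∀ H, F H → ∃ S ∈ G, S ⊆ H) ∧ ∑ S ∈ G, r ^ S.card ≤ E := by
  have hout := outer_bound (F := F) (l := l) hg0 hcover hl hr0 hr1
  obtain ⟨W, hW⟩ := exists_le_of_weighted (fun W => sel (fun _ => r) W) (bW F l g r) E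
    (fun W => sel_const_nonneg hr0 hr1 W) (sum_sel _) (by linarith)
  obtain ⟨R, hR⟩ := exists_le_of_weighted (fun R => sel (qW g l W) R)
    (cost r (famW F l g W) (badW g W)) E
    (fun R => sel_nonneg (qW_nonneg hg0 W) (qW_le_one g W) R) (sum_sel _)
    ((inner_bound hg0 hcover hr0 W).trans hW)
  have hnn1 : 0 ≤ ∑ A ∈ R, r ^ A.card := sum_nonneg fun A _ => by positivity
  have hgood : gsum g W < 1 / 2 := by
    by_contra hbad
    have hb : badW g W = 1 := by
      unfold badW
      rw [if_neg hbad]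
    have hf : famW F l g W = ∅ := by
      unfold famW
      rw [if_neg hbad]
    unfold cost at hR
    rw [hb, hf, sum_empty] at hR
    linarith
  have hb : badW g W = 0 := by
    unfold badW
    rw [if_pos hgood]
  have hf : famW F l g W = fam F l W := by
    unfold famW
    rw [if_pos hgood]
  refine ⟨R ∪ (fam F l W).filter (fun T => Disjoint R T.powerset), ?_, ?_⟩
  · intro H hH
    obtain ⟨T, hT, hTH⟩ := exists_mem_fam hup hl hH W
    by_cases hd : Disjoint R T.powerset
    · exact ⟨T, mem_union_right _ (mem_filter.2 ⟨hT, hd⟩), hTH⟩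
    · rw [Finset.not_disjoint_iff] at hd
      obtain ⟨A, hAR, hAT⟩ := hd
      exact ⟨A, mem_union_left _ hAR, (mem_powerset.1 hAT).trans hTH⟩
  · unfold cost at hR
    rw [hb, hf, add_zero, ← sum_filter] at hR
    have hu := sum_union_inter (s₁ := R)
      (s₂ := (fam F l W).filter (fun T => Disjoint R T.powerset)) (f := fun S => r ^ S.card)
    have hi : 0 ≤ ∑ S ∈ R ∩ (fam F l W).filter (fun T => Disjoint R T.powerset), r ^ S.card :=
      sum_nonneg fun A _ => by positivity
    linarith

end Vale.Agent.Lib.P034Univ
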