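import Vale.Agent.Lib.P034Univ.RegimeC
import Vale.Agent.Lib.P034Univ.Round

/-!
# Intermediate weights: the guard and the noise function
-/

namespace Vale.Agent.Lib.P034Univ

open Finset
open scoped Nat
open Classical

set_option linter.unusedSectionVars false
set_option linter.unusedVariables false

variable {X : Type*} [Fintype X] [DecidableEq X]

/-- The noise function: the mass of the sets above `U`, at density `r` outside `U`. -/
noncomputable def noiseY (𝓢 : Finset (Finset X)) (r ψ : ℝ) (u : ℕ) (U : Finset X) : ℝ :=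
  if U ≠ ∅ ∧ U.card < u then 2 / ψ * ∑ S ∈ 𝓢.filter (U ⊆ ·), r ^ (S \ U).card else 0

lemma noiseY_nonneg (𝓢 : Finset (Finset X)) {r ψ : ℝ} (hr : 0 ≤ r) (hψ : 0 < ψ) (u : ℕ)
    (U : Finset X) : 0 ≤ noiseY 𝓢 r ψ u U := by
  unfold noiseY
  split_ifs
  · exact mul_nonneg (by positivity) (sum_nonneg fun S _ => by positivity)
  · exact le_rfl

/-- The cost of the noise function. -/
lemma noise_cost (𝓢 : Finset (Finset X)) {r ψ t : ℝ} (hr : 0 ≤ r) (hψ : 0 < ψ) (ht : 0 ≤ t) {u : ℕ}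
    (h𝓢 : ∀ S ∈ 𝓢, S.card = u) :
    ∑ U, noiseY 𝓢 r ψ u U * t ^ U.card ≤ 2 / ψ * ((𝓢.card : ℝ) * (r + t) ^ u) := by
  have h1 : ∀ U : Finset X, noiseY 𝓢 r ψ u U * t ^ U.card ≤
      2 / ψ * ∑ S ∈ 𝓢, (if U ⊆ S then t ^ U.card * r ^ (S.card - U.card) else 0) := by
    intro U
    unfold noiseY
    split_ifs
    · rw [mul_assoc]
      apply mul_le_mul_of_nonneg_left _ (by positivity)
      rw [sum_mul, sum_filter]
      refine sum_le_sum fun S _ => ?_
      split_ifs with hU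
      · rw [card_sdiff_of_subset hU, mul_comm]
      · exact le_rfl
    · rw [zero_mul]
      apply mul_nonneg (by positivity)
      refine sum_nonneg fun S _ => ?_
      split_ifs <;> positivity
  refine (sum_le_sum fun U _ => h1 U).trans (le_of_eq ?_)
  rw [← mul_sum, sum_comm]
  congr 1
  have h2 : ∀ S ∈ 𝓢, ∑ U, (if U ⊆ S then t ^ U.card * r ^ (S.card - U.card) else 0) = (r + t) ^ u := by
    intro S hS
    rw [← sum_filter]
    have h3 : (univ : Finset (Finset X)).filter (· ⊆ S) = S.powerset := by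
      ext U
      simp
    rw [h3, sum_pow_mul_eq_add_pow, h𝓢 S hS, add_comm]
  rw [sum_congr rfl h2, sum_const, nsmul_eq_mul]

/-- A set with a large guard has noise at least one. -/
lemma noise_cover (𝓢 : Finset (Finset X)) {r ψ : ℝ} (hr : 0 ≤ r) (hψ : 0 < ψ) {u : ℕ}
    (h𝓢 : ∀ S ∈ 𝓢, S.card = u) (T : Finset X) (h1 : ψ < ∑ S ∈ 𝓢, r ^ (S \ T).card)
    (h2 : (𝓢.card : ℝ) * r ^ u ≤ ψ / 8) (h3 : ((T.card.choose u : ℕ) : ℝ) ≤ ψ / 4) :
    1 ≤ ∑ U ∈ T.powerset, noiseY 𝓢 r ψ u U := by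
  set Z := ∑ U ∈ T.powerset, noiseY 𝓢 r ψ u U with hZ
  -- pointwise split
  set valid : Finset X → Prop := fun S => S ∩ T ≠ ∅ ∧ (S ∩ T).card < u with hvalid
  have hpt : ∀ S ∈ 𝓢, r ^ (S \ T).card ≤ r ^ u + (if S ⊆ T then 1 else 0) +
      (if valid S then r ^ (S \ T).card else 0) := by
    intro S hS
    have hnn : 0 ≤ r ^ u := by positivity
    have hnn2 : 0 ≤ r ^ (S \ T).card := by positivity
    by_cases hv : valid S
    · rw [if_pos hv]
      split_ifs <;> linarith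
    · rw [if_neg hv, add_zero]
      simp only [hvalid, not_and_or, not_not, not_lt] at hv
      rcases hv with hv | hv
      · -- disjoint
        have h4 : S \ T = S := by
          rw [Finset.sdiff_eq_self_iff_disjoint]
          exact disjoint_iff_inter_eq_empty.2 hv
        rw [h4, h𝓢 S hS]
        split_ifs <;> linarith
      · -- contained
        have h4 : S ∩ T = S := by
          apply eq_of_subset_of_card_le inter_subset_left
          rw [h𝓢 S hS]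
          exact hv
        have h5 : S ⊆ T := inter_eq_left.1 h4
        rw [if_pos h5, sdiff_eq_empty_iff_subset.2 h5]
        simp only [card_empty, pow_zero]
        linarith
  have hsum := sum_le_sum hpt
  rw [sum_add_distrib, sum_add_distrib, sum_const, nsmul_eq_mul] at hsum
  -- the sets inside `T`
  have hin : ∑ S ∈ 𝓢, (if S ⊆ T then (1 : ℝ) else 0) ≤ ψ / 4 := by
    refine le_trans ?_ h3
    rw [← sum_filter, sum_const, nsmul_eq_mul, mul_one, ← card_powersetCard]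
    have : (𝓢.filter (· ⊆ T)).card ≤ (powersetCard u T).card := by
      apply card_le_card
      intro S hS
      obtain ⟨h4, h5⟩ := mem_filter.1 hS
      exact mem_powersetCard.2 ⟨h5, h𝓢 S h4⟩
    exact_mod_cast this
  -- the sets with a proper trace
  have hmid : ∑ S ∈ 𝓢, (if valid S then r ^ (S \ T).card else 0) ≤ ψ / 2 * Z := by
    rw [← sum_filter, hZ, mul_sum]
    rw [← sum_fiberwise_of_maps_to (t := T.powerset) (g := fun S => S ∩ T)
      (fun S _ => mem_powerset.2 inter_subset_right)]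
    refine sum_le_sum fun U hU => ?_
    by_cases hv : U ≠ ∅ ∧ U.card < u
    · unfold noiseY
      rw [if_pos hv, ← mul_assoc]
      have h5 : ψ / 2 * (2 / ψ) = 1 := by
        field_simp
      rw [h5, one_mul]
      have h6 : ∀ S ∈ (𝓢.filter valid).filter (fun S => S ∩ T = U),
          r ^ (S \ T).card = r ^ (S \ U).card := by
        intro S hS
        have h7 := (mem_filter.1 hS).2
        rw [← h7, sdiff_inter_self_left]
      rw [sum_congr rfl h6]
      apply sum_le_sum_of_subset_of_nonneg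
      · intro S hS
        obtain ⟨h7, h8⟩ := mem_filter.1 hS
        refine mem_filter.2 ⟨(mem_filter.1 h7).1, ?_⟩
        rw [← h8]
        exact inter_subset_left
      · intro S _ _
        positivity
    · have h5 : (𝓢.filter valid).filter (fun S => S ∩ T = U) = ∅ := by
        rw [filter_eq_empty_iff]
        intro S hS h7
        apply hv
        rw [← h7]
        exact (mem_filter.1 hS).2
      rw [h5, sum_empty]
      exact mul_nonneg (by positivity) (noiseY_nonneg 𝓢 hr hψ u U)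
  have h5 : ψ < ψ / 8 + ψ / 4 + ψ / 2 * Z := by
    have h6 := lt_of_lt_of_le h1 hsum
    linarith
  have h6 : 0 < ψ / 2 := by positivity
  have h7 : (5 / 4 : ℝ) < Z := by
    by_contra hcon
    push Not at hcon
    have := mul_le_mul_of_nonneg_left hcon h6.le
    nlinarith
  linarith

lemma cube_le_two_pow (n : ℕ) (hn : 12 ≤ n) : (n + 1) ^ 3 ≤ 2 ^ n := by
  induction n, hn using Nat.le_induction with
  | base => norm_num
  | succ n hn ih =>
    have h1 : (n + 1 + 1) ^ 3 ≤ 2 * (n + 1) ^ 3 := by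
      nlinarith [sq_nonneg n, mul_pos (show 0 < n by omega) (show 0 < n by omega)]
    calc (n + 1 + 1) ^ 3 ≤ 2 * (n + 1) ^ 3 := h1
      _ ≤ 2 * 2 ^ n := Nat.mul_le_mul_left 2 ih
      _ = 2 ^ (n + 1) := by ring

/-- The numerical facts of the intermediate regime. -/
lemma regimeB_nums {u a : ℕ} (hu : 1 ≤ u) (ha1 : 160 * u < a) (ha2 : a < 2 ^ (10 * u)) :
    17 ≤ a / (10 * u) + 1 ∧ a / (10 * u) + 1 ≤ a ∧ a < 10 * u * (a / (10 * u) + 1) ∧
    4 * 2 ^ (80 * u) * (3 * (a / (10 * u) + 1)) ^ u ≤ 2 ^ a ∧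
    (2 * ((a / (10 * u) + 1) * u) + 3) * 3 ^ u ≤ 2 ^ (15 * u) ∧
    (a / (10 * u) + 1) * 2 ^ (u + 4) * (a + 1) ^ 2 ≤ 2 ^ a ∧
    3 * 2 ^ (u + 4) * (a + 1) ^ 2 ≤ 2 ^ (30 * u) := by
  have h10 : 0 < 10 * u := by omega
  set q := a / (10 * u) with hq
  have hq16 : 16 ≤ q := by
    rw [hq, Nat.le_div_iff_mul_le h10]
    omega
  have hqa : 10 * u * q ≤ a := Nat.mul_div_le a (10 * u)
  have haq : a < 10 * u * (q + 1) := by
    have := Nat.lt_mul_div_succ a h10
    simpa [hq] using this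
  have hka : q + 1 ≤ a := by
    have : q * 10 ≤ q * (10 * u) := Nat.mul_le_mul_left q (by omega)
    have h2 : 10 * u * q = q * (10 * u) := Nat.mul_comm _ _
    omega
  refine ⟨by omega, hka, haq, ?_, ?_, ?_, ?_⟩
  · -- the inside count
    have h1 : q + 1 < 2 ^ (q + 1) := Nat.lt_two_pow_self
    have h2 : 4 * 2 ^ 80 * (3 * (q + 1)) ≤ 2 ^ (10 * q) := by
      have h3 : 3 * (q + 1) ≤ 2 ^ 2 * 2 ^ (q + 1) := by omega
      calc 4 * 2 ^ 80 * (3 * (q + 1)) ≤ 4 * 2 ^ 80 * (2 ^ 2 * 2 ^ (q + 1)) :=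
            Nat.mul_le_mul_left _ h3
        _ = 2 ^ (q + 85) := by ring
        _ ≤ 2 ^ (10 * q) := Nat.pow_le_pow_right (by norm_num) (by omega)
    calc 4 * 2 ^ (80 * u) * (3 * (q + 1)) ^ u
        ≤ 4 ^ u * (2 ^ 80) ^ u * (3 * (q + 1)) ^ u := by
          apply Nat.mul_le_mul_right
          rw [pow_mul]
          apply Nat.mul_le_mul_right
          calc 4 = 4 ^ 1 := by norm_num
            _ ≤ 4 ^ u := Nat.pow_le_pow_right (by norm_num) hu
      _ = (4 * 2 ^ 80 * (3 * (q + 1))) ^ u := by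
          rw [mul_pow (4 * 2 ^ 80) (3 * (q + 1)) u, mul_pow 4 (2 ^ 80) u]
      _ ≤ (2 ^ (10 * q)) ^ u := Nat.pow_le_pow_left h2 u
      _ = 2 ^ (10 * u * q) := by
          rw [← pow_mul]
          congr 1
          ring
      _ ≤ 2 ^ a := Nat.pow_le_pow_right (by norm_num) hqa
  · -- the rounding factor
    have h1 : u < 2 ^ u := Nat.lt_two_pow_self
    have h2 : (q + 1) * u ≤ 2 ^ (10 * u) * 2 ^ u := by
      apply Nat.mul_le_mul
      · omega
      · omega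
    have h3 : 2 ^ (10 * u) * 2 ^ u = 2 ^ (11 * u) := by
      rw [← pow_add]
      congr 1
      ring
    have h4 : 2 * ((q + 1) * u) + 3 ≤ 2 ^ (13 * u) := by
      have h5 : 2 ^ (11 * u) * 4 ≤ 2 ^ (13 * u) := by
        have : 2 ^ (11 * u) * 4 = 2 ^ (11 * u + 2) := by ring
        rw [this]
        exact Nat.pow_le_pow_right (by norm_num) (by omega)
      have h6 : 2 ^ 1 ≤ 2 ^ (11 * u) := Nat.pow_le_pow_right (by norm_num) (by omega)
      omega
    have h5 : 3 ^ u ≤ 2 ^ (2 * u) := by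
      rw [pow_mul]
      exact Nat.pow_le_pow_left (by norm_num) u
    calc (2 * ((q + 1) * u) + 3) * 3 ^ u ≤ 2 ^ (13 * u) * 2 ^ (2 * u) := Nat.mul_le_mul h4 h5
      _ = 2 ^ (15 * u) := by
          rw [← pow_add]
          congr 1
          ring
  · -- small count
    set n := a - u - 7 with hn
    have hn12 : 12 ≤ n := by omega
    have h1 := cube_le_two_pow n hn12
    have h2 : a + 1 ≤ 2 * (n + 1) := by omega
    have h3 : (a + 1) ^ 3 ≤ 2 ^ (n + 3) := by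
      calc (a + 1) ^ 3 ≤ (2 * (n + 1)) ^ 3 := Nat.pow_le_pow_left h2 3
        _ = 2 ^ 3 * (n + 1) ^ 3 := by ring
        _ ≤ 2 ^ 3 * 2 ^ n := Nat.mul_le_mul_left _ h1
        _ = 2 ^ (n + 3) := by ring
    calc (q + 1) * 2 ^ (u + 4) * (a + 1) ^ 2 ≤ (a + 1) * 2 ^ (u + 4) * (a + 1) ^ 2 := by
          apply Nat.mul_le_mul_right
          apply Nat.mul_le_mul_right
          omega
      _ = 2 ^ (u + 4) * (a + 1) ^ 3 := by ring
      _ ≤ 2 ^ (u + 4) * 2 ^ (n + 3) := Nat.mul_le_mul_left _ h3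
      _ = 2 ^ (u + 4 + (n + 3)) := (pow_add _ _ _).symm
      _ = 2 ^ a := by
          congr 1
          omega
  · -- the ratio
    have h1 : a + 1 ≤ 2 ^ (10 * u) := ha2
    have h2 : (a + 1) ^ 2 ≤ 2 ^ (20 * u) := by
      calc (a + 1) ^ 2 ≤ (2 ^ (10 * u)) ^ 2 := Nat.pow_le_pow_left h1 2
        _ = 2 ^ (20 * u) := by
            rw [← pow_mul]
            congr 1
            ring
    calc 3 * 2 ^ (u + 4) * (a + 1) ^ 2 ≤ 2 ^ 2 * 2 ^ (u + 4) * 2 ^ (20 * u) := by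
          apply Nat.mul_le_mul _ h2
          apply Nat.mul_le_mul_right
          norm_num
      _ = 2 ^ (2 + (u + 4) + 20 * u) := by
          rw [← pow_add, ← pow_add]
      _ ≤ 2 ^ (30 * u) := Nat.pow_le_pow_right (by norm_num) (by omega)

/-- The family covering all `H` containing a small set with large guard. -/
lemma regimeB_round {x : ℝ} (hx0 : 0 < x) (hx1 : x ≤ 1) {u k a : ℕ} (hu : 1 ≤ u)
    (𝓢 : Finset (Finset X)) (h𝓢 : ∀ S ∈ 𝓢, S.card = u)
    (hM : (𝓢.card : ℝ) * x ^ u / 2 ^ a ≤ 1)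
    (hn5 : 4 * 2 ^ (80 * u) * (3 * k) ^ u ≤ 2 ^ a)
    (hn6 : (2 * (k * u) + 3) * 3 ^ u ≤ 2 ^ (15 * u)) :
    ∃ 𝒢 : Finset (Finset X),
      ∑ G ∈ 𝒢, (x / 2 ^ 320) ^ G.card ≤ ((𝓢.card : ℝ) * x ^ u / 2 ^ a) / 2 ^ (200 * u) ∧
      ∀ T H, T.card ≤ k * u → T ⊆ H →
        (2 : ℝ) ^ a / 2 ^ (80 * u) < ∑ S ∈ 𝓢, (x / 2 ^ 320) ^ (S \ T).card → ∃ G ∈ 𝒢, G ⊆ H := by
  set r : ℝ := x / 2 ^ 320 with hr
  have hr0 : 0 ≤ r := by positivity
  have hr1 : r ≤ 1 := by
    rw [hr, div_le_one (by positivity)]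
    have : (1 : ℝ) ≤ 2 ^ 320 := one_le_pow₀ (by norm_num)
    exact hx1.trans this
  set ψ : ℝ := (2 : ℝ) ^ a / 2 ^ (80 * u) with hψ
  have hψ0 : 0 < ψ := by positivity
  set M : ℝ := (𝓢.card : ℝ) * x ^ u / 2 ^ a with hMdef
  have hM0 : 0 ≤ M := by positivity
  have hc0 : (0 : ℝ) < 2 ^ a := by positivity
  have hNr : (𝓢.card : ℝ) * r ^ u = M * 2 ^ a / 2 ^ (320 * u) := by
    rw [hr, div_pow, ← pow_mul, hMdef]
    field_simp
  have hNr8 : (𝓢.card : ℝ) * r ^ u ≤ ψ / 8 := by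
    rw [hNr, hψ, div_le_iff₀ (by positivity)]
    have h1 : (2 : ℝ) ^ (320 * u) = 2 ^ (80 * u) * 2 ^ 3 * 2 ^ (237 * u + (3 * u - 3)) := by
      rw [← pow_add, ← pow_add]
      congr 1
      omega
    rw [h1]
    have h2 : (1 : ℝ) ≤ 2 ^ (237 * u + (3 * u - 3)) := one_le_pow₀ (by norm_num)
    have hp : (0 : ℝ) < 2 ^ (80 * u) := by positivity
    have h3 : M * 2 ^ a ≤ 2 ^ a := by nlinarith
    field_simp
    norm_num
    nlinarith
  have hchoose : ∀ T : Finset X, T.card ≤ k * u → ((T.card.choose u : ℕ) : ℝ) ≤ ψ / 4 := by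
    intro T hT
    have h1 : T.card.choose u ≤ (k * u).choose u := Nat.choose_le_choose u hT
    have h2 : (((k * u).choose u : ℕ) : ℝ) ≤ ((k * u : ℕ) : ℝ) ^ u / (u ! : ℝ) :=
      Nat.choose_le_pow_div u (k * u)
    have hf : (0 : ℝ) < (u ! : ℝ) := by exact_mod_cast Nat.factorial_pos u
    have h3 : ((k * u : ℕ) : ℝ) ^ u / (u ! : ℝ) ≤ ((3 * k : ℕ) : ℝ) ^ u := by
      rw [div_le_iff₀ hf]
      push_cast
      rw [mul_pow, mul_pow]
      have := pow_self_le u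
      have hk : (0 : ℝ) ≤ (k : ℝ) ^ u := by positivity
      nlinarith
    have h4 : ((3 * k : ℕ) : ℝ) ^ u ≤ ψ / 4 := by
      rw [hψ, le_div_iff₀ (by norm_num), le_div_iff₀ (by positivity)]
      have : ((4 * 2 ^ (80 * u) * (3 * k) ^ u : ℕ) : ℝ) ≤ ((2 ^ a : ℕ) : ℝ) := by
        exact_mod_cast hn5
      push_cast at this ⊢
      linarith
    calc ((T.card.choose u : ℕ) : ℝ) ≤ (((k * u).choose u : ℕ) : ℝ) := by exact_mod_cast h1
      _ ≤ ψ / 4 := h2.trans (h3.trans h4)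
  set F : Finset X → Prop := fun H => ∃ T, T ⊆ H ∧ T.card ≤ k * u ∧
    ψ < ∑ S ∈ 𝓢, r ^ (S \ T).card with hF
  have hFup : ∀ A B, A ⊆ B → F A → F B := by
    rintro A B hAB ⟨T, h1, h2, h3⟩
    exact ⟨T, h1.trans hAB, h2, h3⟩
  have hFl : ∀ A, F A → ∃ B, B ⊆ A ∧ F B ∧ B.card ≤ k * u := by
    rintro A ⟨T, h1, h2, h3⟩
    exact ⟨T, h1, ⟨T, Subset.refl _, h2, h3⟩, h2⟩
  have hFcover : ∀ H, F H → 1 ≤ ∑ S ∈ H.powerset, noiseY 𝓢 r ψ u S := by
    rintro H ⟨T, h1, h2, h3⟩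
    refine (noise_cover 𝓢 hr0 hψ0 h𝓢 T h3 hNr8 (hchoose T h2)).trans ?_
    apply sum_le_sum_of_subset_of_nonneg (powerset_mono.2 h1)
    intro U _ _
    exact noiseY_nonneg 𝓢 hr0 hψ0 u U
  have hE : 2 * ((k * u : ℕ) : ℝ) * ∑ S, noiseY 𝓢 r ψ u S * (2 * r) ^ S.card +
      3 * ∑ S, noiseY 𝓢 r ψ u S * r ^ S.card ≤ M / 2 ^ (200 * u) := by
    have h1 := noise_cost 𝓢 hr0 hψ0 (t := 2 * r) (by positivity) h𝓢
    have h2 := noise_cost 𝓢 hr0 hψ0 (t := r) hr0 h𝓢
    set W3 : ℝ := 2 / ψ * ((𝓢.card : ℝ) * r ^ u) with hW3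
    have hW30 : 0 ≤ W3 := by positivity
    have h3 : 2 / ψ * ((𝓢.card : ℝ) * (r + 2 * r) ^ u) = W3 * 3 ^ u := by
      have : r + 2 * r = 3 * r := by ring
      rw [this, mul_pow, hW3]
      ring
    have h4 : 2 / ψ * ((𝓢.card : ℝ) * (r + r) ^ u) = W3 * 2 ^ u := by
      have : r + r = 2 * r := by ring
      rw [this, mul_pow, hW3]
      ring
    rw [h3] at h1
    rw [h4] at h2
    have h5 : (2 : ℝ) ^ u ≤ 3 ^ u := pow_le_pow_left₀ (by norm_num) (by norm_num) u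
    have hn6' : (2 * ((k : ℝ) * u) + 3) * 3 ^ u ≤ 2 ^ (15 * u) := by
      exact_mod_cast hn6
    have h6 : 2 * ((k * u : ℕ) : ℝ) * ∑ S, noiseY 𝓢 r ψ u S * (2 * r) ^ S.card +
        3 * ∑ S, noiseY 𝓢 r ψ u S * r ^ S.card ≤ (2 * ((k : ℝ) * u) + 3) * 3 ^ u * W3 := by
      push_cast
      have h7 : 2 * ((k : ℝ) * u) * ∑ S, noiseY 𝓢 r ψ u S * (2 * r) ^ S.card ≤
          2 * ((k : ℝ) * u) * (W3 * 3 ^ u) :=
        mul_le_mul_of_nonneg_left h1 (by positivity)
      have h8 : 3 * ∑ S, noiseY 𝓢 r ψ u S * r ^ S.card ≤ 3 * (W3 * 3 ^ u) := by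
        have : W3 * 2 ^ u ≤ W3 * 3 ^ u := mul_le_mul_of_nonneg_left h5 hW30
        linarith
      nlinarith
    refine h6.trans ?_
    have h7 : W3 = 2 * M * 2 ^ (80 * u) / 2 ^ (320 * u) := by
      rw [hW3, hNr, hψ]
      field_simp
    rw [h7]
    have h8 : (2 * ((k : ℝ) * u) + 3) * 3 ^ u * (2 * M * 2 ^ (80 * u) / 2 ^ (320 * u)) ≤
        2 ^ (15 * u) * (2 * M * 2 ^ (80 * u) / 2 ^ (320 * u)) :=
      mul_le_mul_of_nonneg_right hn6' (by positivity)
    refine h8.trans ?_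
    have h9 : (2 : ℝ) ^ (15 * u) * (2 * M * 2 ^ (80 * u) / 2 ^ (320 * u)) =
        M * (2 ^ (95 * u + 1) / 2 ^ (320 * u)) := by
      rw [show 95 * u + 1 = 15 * u + 80 * u + 1 by ring, pow_add, pow_add]
      ring
    have h10 : (2 : ℝ) ^ (95 * u + 1) / 2 ^ (320 * u) ≤ 1 / 2 ^ (200 * u) := by
      rw [div_le_div_iff₀ (by positivity) (by positivity), one_mul, ← pow_add]
      exact pow_le_pow_right₀ (by norm_num) (by omega)
    rw [h9, div_eq_mul_one_div M]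
    exact mul_le_mul_of_nonneg_left h10 hM0
  have hE1 : M / 2 ^ (200 * u) < 1 := by
    rw [div_lt_one (by positivity)]
    have : (2 : ℝ) ≤ 2 ^ (200 * u) := by
      calc (2 : ℝ) = 2 ^ 1 := by norm_num
        _ ≤ 2 ^ (200 * u) := pow_le_pow_right₀ (by norm_num) (by omega)
    linarith
  obtain ⟨G, hG1, hG2⟩ := cover_of_small F hFup (k * u) hFl (noiseY 𝓢 r ψ u)
    (noiseY_nonneg 𝓢 hr0 hψ0 u) hFcover r hr0 hr1 _ hE hE1
  exact ⟨G, hG2, fun T H hT hTH hcore => hG1 H ⟨T, hTH, hT, hcore⟩⟩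

/-- **Intermediate weights.**  A family of `u`-sets of weight `2^(-a)`, `160 u < a < 2^(10 u)`,
has a cheap family such that every set containing none of its members contains few sets of `𝓢`. -/
theorem regimeB {x : ℝ} (hx0 : 0 < x) (hx1 : x ≤ 1) {u a : ℕ} (hu : 1 ≤ u)
    (ha1 : 160 * u < a) (ha2 : a < 2 ^ (10 * u))
    (𝓢 : Finset (Finset X)) (h𝓢 : ∀ S ∈ 𝓢, S.card = u)
    (hM : (𝓢.card : ℝ) * x ^ u / 2 ^ a ≤ 1) :
    ∃ 𝒢 : Finset (Finset X),
      ∑ G ∈ 𝒢, (x / 2 ^ 320) ^ G.card ≤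
        ((𝓢.card : ℝ) * x ^ u / 2 ^ a) / 2 ^ (200 * u) + 1 / 2 ^ (4 * a) ∧
      ∀ H, (∀ G ∈ 𝒢, ¬ G ⊆ H) →
        ((𝓢.filter (· ⊆ H)).card : ℝ) / 2 ^ a ≤ 1 / (2 ^ (u + 3) * ((a : ℝ) + 1) ^ 2) := by
  obtain ⟨hk17, hka, hak, hn5, hn6, hn7, hn8⟩ := regimeB_nums hu ha1 ha2
  set k := a / (10 * u) + 1 with hkdef
  have hk1 : 1 ≤ k := by omega
  have hk0 : (0 : ℝ) < k := by exact_mod_cast hk1
  set r : ℝ := x / 2 ^ 320 with hr
  have hr0 : 0 ≤ r := by positivity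
  set c : ℝ := 2 ^ a with hc
  have hc0 : 0 < c := by positivity
  have hc2 : 2 ≤ c := by
    calc (2 : ℝ) = 2 ^ 1 := by norm_num
      _ ≤ 2 ^ a := pow_le_pow_right₀ (by norm_num) (by omega)
  set ψ : ℝ := c / 2 ^ (80 * u) with hψ
  have hψ0 : 0 < ψ := by positivity
  set θ : ℝ := 1 / (2 ^ (u + 4) * ((a : ℝ) + 1) ^ 2) with hθ
  have hθ0 : 0 < θ := by positivity
  have hθ1 : θ ≤ 1 / 2 := by
    rw [hθ]
    apply one_div_le_one_div_of_le (by norm_num)
    have h1 : (1 : ℝ) ≤ ((a : ℝ) + 1) ^ 2 := by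
      have : (0 : ℝ) ≤ a := Nat.cast_nonneg a
      nlinarith
    have h2 : (2 : ℝ) ≤ 2 ^ (u + 4) := by
      calc (2 : ℝ) = 2 ^ 1 := by norm_num
        _ ≤ 2 ^ (u + 4) := pow_le_pow_right₀ (by norm_num) (by omega)
    nlinarith
  set P : ℕ := ⌈θ * c / k⌉₊ with hP
  have hP1 : 1 ≤ P := Nat.ceil_pos.2 (by positivity)
  have hP0 : (0 : ℝ) < P := by exact_mod_cast hP1
  have hPge : θ * c ≤ k * P := by
    have := Nat.le_ceil (θ * c / k)
    rw [div_le_iff₀ hk0] at this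
    linarith
  have hPle : (k : ℝ) * P ≤ θ * c + k := by
    have h1 := Nat.ceil_lt_add_one (a := θ * c / k) (by positivity)
    have h2 : (k : ℝ) * P ≤ k * (θ * c / k + 1) :=
      mul_le_mul_of_nonneg_left h1.le hk0.le
    have h3 : (k : ℝ) * (θ * c / k + 1) = θ * c + k := by
      field_simp
    linarith
  have hPc : (P : ℝ) ≤ c := by
    have h1 := Nat.ceil_lt_add_one (a := θ * c / k) (by positivity)
    have h2 : θ * c / k ≤ θ * c := by
      apply div_le_self (by positivity)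
      exact_mod_cast hk1
    have h3 : θ * c ≤ c / 2 := by nlinarith
    linarith
  obtain ⟨𝒢₂, hG2c, hG2⟩ := regimeB_round hx0 hx1 hu 𝓢 h𝓢 hM hn5 hn6
  obtain ⟨𝒢₁, _, hG1c, hG1⟩ := core_lemma (∅ : Finset X) 𝓢
    (fun T => ψ < ∑ S ∈ 𝓢, r ^ (S \ T).card) hr0 hψ0.le (fun T _ hT => not_lt.1 hT) hk1 hP1
  refine ⟨𝒢₁ ∪ 𝒢₂, ?_, ?_⟩
  · refine (sum_union_le' _ _ _ fun G => pow_nonneg hr0 _).trans ?_
    rw [add_comm]
    refine add_le_add hG2c ?_
    simp only [sdiff_empty] at hG1c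
    refine hG1c.trans ((core_bound hψ0.le hk1 hP1).trans ?_)
    -- the ratio
    have hq : 3 * ψ / (k * P) ≤ 1 / 2 ^ (50 * u) := by
      rw [div_le_div_iff₀ (by positivity) (by positivity), one_mul]
      have hn8' : 3 * 2 ^ (u + 4) * ((a : ℝ) + 1) ^ 2 ≤ 2 ^ (30 * u) := by
        exact_mod_cast hn8
      have h1 : 3 * ψ * 2 ^ (50 * u) ≤ θ * c := by
        have h2 : 3 * ψ * 2 ^ (50 * u) = c * (3 * 2 ^ (50 * u) / 2 ^ (80 * u)) := by
          rw [hψ]
          ring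
        have h3 : θ * c = c * θ := mul_comm _ _
        rw [h2, h3]
        apply mul_le_mul_of_nonneg_left _ hc0.le
        rw [div_le_iff₀ (by positivity), hθ, div_mul_eq_mul_div, one_mul, le_div_iff₀ (by positivity)]
        have h4 : (2 : ℝ) ^ (80 * u) = 2 ^ (50 * u) * 2 ^ (30 * u) := by
          rw [← pow_add]
          congr 1
          ring
        rw [h4]
        have hp : (0 : ℝ) < 2 ^ (50 * u) := by positivity
        nlinarith
      linarith
    have hq0 : 0 ≤ 3 * ψ / (k * P) := by positivity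
    calc (P : ℝ) * (3 * ψ / (k * P)) ^ k ≤ c * (1 / 2 ^ (50 * u)) ^ k :=
          mul_le_mul hPc (pow_le_pow_left₀ hq0 hq k) (by positivity) hc0.le
      _ ≤ 1 / 2 ^ (4 * a) := by
          rw [one_div, inv_pow, ← pow_mul, ← div_eq_mul_inv, hc,
            div_le_div_iff₀ (by positivity) (by positivity), one_mul, ← pow_add]
          apply pow_le_pow_right₀ (by norm_num)
          have : a * 5 ≤ 50 * u * k := by
            calc a * 5 ≤ (10 * u * k) * 5 := Nat.mul_le_mul_right 5 hak.le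
              _ = 50 * u * k := by ring
          omega
  · intro H hH
    have hcount : ((𝓢.filter (· ⊆ H)).card : ℝ) < θ * c + k := by
      by_contra hcon
      push Not at hcon
      have hPd : k * P ≤ (𝓢.filter (· ⊆ H)).card := by
        have : ((k * P : ℕ) : ℝ) ≤ ((𝓢.filter (· ⊆ H)).card : ℝ) := by
          push_cast
          linarith
        exact_mod_cast this
      rcases hG1 H (empty_subset _) hPd with ⟨G, hG, hGH⟩ | ⟨A, hA, hAk, hcore, hAH⟩
      · exact hH G (mem_union_left _ hG) hGH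
      · have hT : (∅ ∪ bigU A).card ≤ k * u := by
          rw [empty_union]
          refine (card_bigU_le fun B hB => (h𝓢 B (hA hB)).le).trans ?_
          exact Nat.mul_le_mul_right u hAk
        obtain ⟨G, hG, hGH⟩ := hG2 _ H hT hAH hcore
        exact hH G (mem_union_right _ hG) hGH
    have hn7' : (k : ℝ) * 2 ^ (u + 4) * ((a : ℝ) + 1) ^ 2 ≤ c := by
      rw [hc]
      exact_mod_cast hn7
    have hkc : (k : ℝ) / c ≤ θ := by
      rw [div_le_iff₀ hc0, hθ, div_mul_eq_mul_div, one_mul, le_div_iff₀ (by positivity)]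
      linarith
    have h1 : ((𝓢.filter (· ⊆ H)).card : ℝ) / c ≤ θ + k / c := by
      have h2 : θ + k / c = (θ * c + k) / c := by
        field_simp
      rw [h2]
      exact div_le_div_of_nonneg_right hcount.le hc0.le
    refine h1.trans ?_
    have h3 : 1 / (2 ^ (u + 3) * ((a : ℝ) + 1) ^ 2) = 2 * θ := by
      rw [hθ, pow_succ (2 : ℝ) (u + 3)]
      field_simp
    rw [h3]
    linarith

end Vale.Agent.Lib.P034Univ
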