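import Mathlib

/-!
# Decomposition of a family along maximal hubs, and the trace sum
-/

namespace Vale.Agent.Lib.P034Univ

open Finset
open Classical

set_option linter.unusedSectionVars false

variable {X : Type*} [Fintype X] [DecidableEq X]

/-- Every set of a family is assigned to a hub `τ S ⊆ S` of size less than `u`; each nonempty hub
has many sets assigned to it, and the sets assigned to a hub are spread above the hub. -/
theorem exists_spread {u : ℕ} (hu : 0 < u) (n : ℕ → ℝ) (hn : ∀ j, 0 < n j)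
    (𝓢 : Finset (Finset X)) :
    ∃ τ : Finset X → Finset X,
      (∀ S ∈ 𝓢, τ S ⊆ S ∧ (τ S).card < u) ∧
      (∀ W, W ≠ ∅ → (∃ S ∈ 𝓢, τ S = W) → n W.card ≤ ((𝓢.filter fun S => τ S = W).card : ℝ)) ∧
      (∀ W W', W ⊂ W' → W'.card < u →
        ((𝓢.filter fun S => τ S = W ∧ W' ⊆ S).card : ℝ) < n W'.card) := by
  induction' hm : 𝓢.card using Nat.strong_induction_on with m ih generalizing 𝓢
  by_cases hcand : ∃ W' : Finset X, W' ≠ ∅ ∧ W'.card < u ∧
      n W'.card ≤ ((𝓢.filter fun S => W' ⊆ S).card : ℝ)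
  · -- pick a candidate of maximal size
    set cand : Finset (Finset X) := univ.filter fun W' : Finset X => W' ≠ ∅ ∧ W'.card < u ∧
      n W'.card ≤ ((𝓢.filter fun S => W' ⊆ S).card : ℝ) with hcanddef
    have hne : cand.Nonempty := by
      obtain ⟨W', h⟩ := hcand
      exact ⟨W', mem_filter.2 ⟨mem_univ _, h⟩⟩
    obtain ⟨W₀, hW₀, hmax⟩ := exists_max_image cand card hne
    obtain ⟨h1, h2, h3⟩ := (mem_filter.1 hW₀).2
    set 𝓢₁ := 𝓢.filter fun S => ¬ W₀ ⊆ S with h𝓢₁
    have hpos : 0 < (𝓢.filter fun S => W₀ ⊆ S).card := by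
      have := lt_of_lt_of_le (hn W₀.card) h3
      exact_mod_cast this
    have hlt : 𝓢₁.card < m := by
      rw [← hm]
      obtain ⟨S, hS⟩ := card_pos.1 hpos
      apply card_lt_card
      refine ⟨filter_subset _ _, fun hsub => ?_⟩
      have := hsub (mem_filter.1 hS).1
      exact (mem_filter.1 this).2 (mem_filter.1 hS).2
    obtain ⟨τ₁, hi, hii, hiii⟩ := ih _ hlt 𝓢₁ rfl
    refine ⟨fun S => if W₀ ⊆ S then W₀ else τ₁ S, ?_, ?_, ?_⟩
    · intro S hS
      by_cases hW : W₀ ⊆ S
      · simp only [if_pos hW]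
        exact ⟨hW, h2⟩
      · simp only [if_neg hW]
        exact hi S (mem_filter.2 ⟨hS, hW⟩)
    · intro W hWne ⟨S, hS, hτ⟩
      by_cases hWW : W = W₀
      · subst hWW
        refine h3.trans ?_
        have : (𝓢.filter fun S => W ⊆ S).card ≤
            (𝓢.filter fun S => (if W ⊆ S then W else τ₁ S) = W).card := by
          apply card_le_card
          intro S' hS'
          obtain ⟨h4, h5⟩ := mem_filter.1 hS'
          exact mem_filter.2 ⟨h4, by rw [if_pos h5]⟩
        exact_mod_cast this
      · have hW₀S : ¬ W₀ ⊆ S := by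
          intro h
          simp only [if_pos h] at hτ
          exact hWW hτ.symm
        simp only [if_neg hW₀S] at hτ
        have h4 := hii W hWne ⟨S, mem_filter.2 ⟨hS, hW₀S⟩, hτ⟩
        refine h4.trans ?_
        have : (𝓢₁.filter fun S => τ₁ S = W).card ≤
            (𝓢.filter fun S => (if W₀ ⊆ S then W₀ else τ₁ S) = W).card := by
          apply card_le_card
          intro S' hS'
          obtain ⟨h5, h6⟩ := mem_filter.1 hS'
          obtain ⟨h7, h8⟩ := mem_filter.1 h5
          exact mem_filter.2 ⟨h7, by rw [if_neg h8]; exact h6⟩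
        exact_mod_cast this
    · intro W W' hWW' hW'
      by_cases hWW : W = W₀
      · subst hWW
        have hnot : ¬ n W'.card ≤ ((𝓢.filter fun S => W' ⊆ S).card : ℝ) := by
          intro hc
          have hW'ne : W' ≠ ∅ := by
            rintro rfl
            exact (not_ssubset_empty _) hWW'
          have := hmax W' (mem_filter.2 ⟨mem_univ _, hW'ne, hW', hc⟩)
          have h5 := card_lt_card hWW'
          omega
        push Not at hnot
        refine lt_of_le_of_lt ?_ hnot
        have : (𝓢.filter fun S => (if W ⊆ S then W else τ₁ S) = W ∧ W' ⊆ S).card ≤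
            (𝓢.filter fun S => W' ⊆ S).card := by
          apply card_le_card
          intro S' hS'
          obtain ⟨h4, _, h6⟩ := mem_filter.1 hS'
          exact mem_filter.2 ⟨h4, h6⟩
        exact_mod_cast this
      · refine lt_of_le_of_lt ?_ (hiii W W' hWW' hW')
        have : (𝓢.filter fun S => (if W₀ ⊆ S then W₀ else τ₁ S) = W ∧ W' ⊆ S).card ≤
            (𝓢₁.filter fun S => τ₁ S = W ∧ W' ⊆ S).card := by
          apply card_le_card
          intro S' hS'
          obtain ⟨h4, h5, h6⟩ := mem_filter.1 hS'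
          have h7 : ¬ W₀ ⊆ S' := by
            intro h
            rw [if_pos h] at h5
            exact hWW h5.symm
          rw [if_neg h7] at h5
          exact mem_filter.2 ⟨mem_filter.2 ⟨h4, h7⟩, h5, h6⟩
        exact_mod_cast this
  · push Not at hcand
    refine ⟨fun _ => ∅, ?_, ?_, ?_⟩
    · intro S _
      exact ⟨empty_subset _, by simpa using hu⟩
    · intro W hW ⟨S, _, hτ⟩
      exact absurd hτ.symm hW
    · intro W W' hWW' hW'
      by_cases hW : W = ∅
      · subst hW
        have hW'ne : W' ≠ ∅ := by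
          rintro rfl
          exact (not_ssubset_empty _) hWW'
        refine lt_of_le_of_lt ?_ (hcand W' (nonempty_iff_ne_empty.2 hW'ne) hW')
        have : (𝓢.filter fun S => (∅ : Finset X) = ∅ ∧ W' ⊆ S).card ≤
            (𝓢.filter fun S => W' ⊆ S).card := by
          apply card_le_card
          intro S' hS'
          obtain ⟨h4, _, h6⟩ := mem_filter.1 hS'
          exact mem_filter.2 ⟨h4, h6⟩
        exact_mod_cast this
      · have : (𝓢.filter fun S => (∅ : Finset X) = W ∧ W' ⊆ S).card = 0 := by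
          rw [card_eq_zero, filter_eq_empty_iff]
          intro S _ h
          exact hW h.1.symm
        simp only [this]
        simpa using hn W'.card

/-- The trace of `S` on `T` outside `W`. -/
def tr (W T S : Finset X) : Finset X := (S ∩ T) \ W

lemma tr_subset (W T S : Finset X) : tr W T S ⊆ T \ W := by
  intro a ha
  simp only [tr, mem_sdiff, mem_inter] at ha ⊢
  exact ⟨ha.1.2, ha.2⟩

lemma card_sdiff_tr {W T S : Finset X} (hWT : W ⊆ T) (hWS : W ⊆ S) :
    (S \ T).card = S.card - W.card - (tr W T S).card := by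
  have h1 : S \ T = S \ (W ∪ tr W T S) := by
    ext a
    simp only [tr, mem_sdiff, mem_union, mem_inter, not_or, not_and]
    by_cases hW : a ∈ W
    · have hT := hWT hW
      simp [hW, hT]
    · by_cases hT : a ∈ T <;> simp [hW, hT]
  have h2 : W ∪ tr W T S ⊆ S := by
    apply union_subset hWS
    intro a ha
    simp only [tr, mem_sdiff, mem_inter] at ha
    exact ha.1.1
  have h3 : (W ∪ tr W T S).card = W.card + (tr W T S).card := by
    rw [card_union_of_disjoint]
    rw [Finset.disjoint_left]
    intro a ha hb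
    simp only [tr, mem_sdiff] at hb
    exact hb.2 ha
  rw [h1, card_sdiff_of_subset h2, h3]
  omega

/-- The trace sum: grouping the sets of `𝓛` according to their trace on `T`. -/
theorem trace_sum {u : ℕ} {W T : Finset X} (hWT : W ⊆ T) (𝓛 : Finset (Finset X))
    (h𝓛 : ∀ S ∈ 𝓛, S.card = u ∧ W ⊆ S) {r : ℝ} (hr : 0 ≤ r) {D β : ℝ} (hD : 0 ≤ D) (hβ : 0 ≤ β)
    (hβ2 : (1 + β) ^ (T \ W).card ≤ 2)
    (hV : ∀ V, V ⊆ T \ W → V ≠ ∅ →
      ((𝓛.filter fun S => tr W T S = V).card : ℝ) * r ^ (u - W.card - V.card) ≤ D * β ^ V.card) :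
    ∑ S ∈ 𝓛, r ^ (S \ T).card ≤ (𝓛.card : ℝ) * r ^ (u - W.card) + D := by
  have h1 : ∑ S ∈ 𝓛, r ^ (S \ T).card =
      ∑ V ∈ (T \ W).powerset, ((𝓛.filter fun S => tr W T S = V).card : ℝ) *
        r ^ (u - W.card - V.card) := by
    rw [← sum_fiberwise_of_maps_to (t := (T \ W).powerset) (g := fun S => tr W T S)
      (fun S _ => mem_powerset.2 (tr_subset W T S))]
    refine sum_congr rfl fun V _ => ?_
    have h2 : ∀ S ∈ 𝓛.filter (fun S => tr W T S = V), r ^ (S \ T).card =
        r ^ (u - W.card - V.card) := by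
      intro S hS
      obtain ⟨h3, h4⟩ := mem_filter.1 hS
      obtain ⟨h5, h6⟩ := h𝓛 S h3
      rw [card_sdiff_tr hWT h6, h4, h5]
    rw [sum_congr rfl h2, sum_const, nsmul_eq_mul]
  rw [h1]
  have hempty : (∅ : Finset X) ∈ (T \ W).powerset := by simp
  rw [← add_sum_erase _ _ hempty]
  have h2 : ((𝓛.filter fun S => tr W T S = ∅).card : ℝ) * r ^ (u - W.card - (∅ : Finset X).card) ≤
      (𝓛.card : ℝ) * r ^ (u - W.card) := by
    simp only [card_empty, Nat.sub_zero]
    apply mul_le_mul_of_nonneg_right _ (by positivity)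
    exact_mod_cast card_filter_le _ _
  have h3 : ∑ V ∈ (T \ W).powerset.erase ∅, ((𝓛.filter fun S => tr W T S = V).card : ℝ) *
        r ^ (u - W.card - V.card) ≤ D := by
    have h4 : ∑ V ∈ (T \ W).powerset.erase ∅, ((𝓛.filter fun S => tr W T S = V).card : ℝ) *
        r ^ (u - W.card - V.card) ≤ ∑ V ∈ (T \ W).powerset.erase ∅, D * β ^ V.card := by
      refine sum_le_sum fun V hV' => ?_
      obtain ⟨h5, h6⟩ := mem_erase.1 hV'
      exact hV V (mem_powerset.1 h6) h5
    refine h4.trans ?_
    rw [← mul_sum]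
    have h5 : ∑ V ∈ (T \ W).powerset, β ^ V.card = (1 + β) ^ (T \ W).card := by
      have := sum_pow_mul_eq_add_pow β (1 : ℝ) (T \ W)
      simp only [one_pow, mul_one] at this
      rw [this, add_comm]
    rw [← add_sum_erase _ _ hempty] at h5
    simp only [card_empty, pow_zero] at h5
    have h6 : ∑ V ∈ (T \ W).powerset.erase ∅, β ^ V.card ≤ 1 := by linarith
    calc D * ∑ V ∈ (T \ W).powerset.erase ∅, β ^ V.card ≤ D * 1 :=
          mul_le_mul_of_nonneg_left h6 hD
      _ = D := mul_one D
  linarith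

end Vale.Agent.Lib.P034Univ
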