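import Vale.Agent.Lib.P034Univ.CoreLemma
import Vale.Agent.Lib.P034Univ.Spread

/-!
# Very small weights: the hub decomposition
-/

namespace Vale.Agent.Lib.P034Univ

open Finset
open scoped Nat
open Classical

set_option linter.unusedSectionVars false
set_option linter.unusedVariables false

variable {X : Type*} [Fintype X] [DecidableEq X]

lemma one_add_pow_le_two {t n : ℕ} (ht : 1 ≤ t) (hn : n ≤ t) :
    (1 + 1 / (2 * (t : ℝ))) ^ n ≤ 2 := by
  have ht0 : (0 : ℝ) < t := by exact_mod_cast ht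
  have h1 : (1 : ℝ) ≤ 1 + 1 / (2 * (t : ℝ)) := by
    have : 0 ≤ 1 / (2 * (t : ℝ)) := by positivity
    linarith
  have h2 : (1 + 1 / (2 * (t : ℝ))) ^ n ≤ (1 + 1 / (2 * (t : ℝ))) ^ t :=
    pow_le_pow_right₀ h1 hn
  have h3 : 1 + 1 / (2 * (t : ℝ)) ≤ Real.exp (1 / (2 * (t : ℝ))) := by
    have := Real.add_one_le_exp (1 / (2 * (t : ℝ)))
    linarith
  have h4 : (1 + 1 / (2 * (t : ℝ))) ^ t ≤ Real.exp (1 / (2 * (t : ℝ))) ^ t :=
    pow_le_pow_left₀ (by positivity) h3 t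
  have h5 : Real.exp (1 / (2 * (t : ℝ))) ^ t = Real.exp (1 / 2) := by
    rw [← Real.exp_nat_mul]
    congr 1
    field_simp
  have h6 : Real.exp (1 / 2 : ℝ) ≤ 2 := by
    have h7 : Real.exp (1 / 2 : ℝ) ^ 2 = Real.exp 1 := by
      rw [← Real.exp_nat_mul]
      norm_num
    have h8 := Real.exp_one_lt_three
    have h9 := Real.exp_pos (1 / 2 : ℝ)
    nlinarith
  linarith

/-- The guard for the sets assigned to a hub. -/
lemma hub_guard {x K lamc : ℝ} (hx0 : 0 < x) (hK0 : 0 < K) (hlamc : 0 < lamc) {u t : ℕ} (ht : 1 ≤ t)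
    {W : Finset X} (hWu : W.card < u) (𝓛 : Finset (Finset X))
    (h𝓛 : ∀ S ∈ 𝓛, S.card = u ∧ W ⊆ S)
    (hRC : (2 * K * t) ^ u ≤ lamc)
    (hspread : ∀ W', W ⊂ W' → W'.card < u →
      ((𝓛.filter fun S => W' ⊆ S).card : ℝ) <
        lamc / (2 * K * t) ^ W'.card / x ^ (u - W'.card))
    {T : Finset X} (hWT : W ⊆ T) (hT : (T \ W).card ≤ t) :
    ∑ S ∈ 𝓛, (x / K) ^ (S \ T).card ≤ (𝓛.card : ℝ) * (x / K) ^ (u - W.card) +
      lamc / (2 * K * t) ^ W.card / K ^ (u - W.card) := by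
  have ht0 : (0 : ℝ) < t := by exact_mod_cast ht
  have hom : (0 : ℝ) < 2 * K * t := by positivity
  apply trace_sum hWT 𝓛 h𝓛 (by positivity) (by positivity) (β := 1 / (2 * (t : ℝ))) (by positivity)
    (one_add_pow_le_two ht hT)
  intro V hVsub hVne
  set i := W.card with hi
  set j := V.card with hj
  have hdisj : Disjoint W V := by
    rw [Finset.disjoint_left]
    intro a ha hb
    exact (mem_sdiff.1 (hVsub hb)).2 ha
  have hW' : (W ∪ V).card = i + j := card_union_of_disjoint hdisj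
  have hVS : ∀ S ∈ 𝓛.filter (fun S => tr W T S = V), W ∪ V ⊆ S := by
    intro S hS
    obtain ⟨h1, h2⟩ := mem_filter.1 hS
    apply union_subset (h𝓛 S h1).2
    rw [← h2]
    intro a ha
    simp only [tr, mem_sdiff, mem_inter] at ha
    exact ha.1.1
  have hnn : 0 ≤ lamc / (2 * K * t) ^ i / K ^ (u - i) * (1 / (2 * (t : ℝ))) ^ j := by positivity
  rcases lt_trichotomy j (u - i) with hlt | heq | hgt
  · -- the generic case
    have hss : W ⊂ W ∪ V := by
      refine ⟨subset_union_left, fun h => ?_⟩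
      obtain ⟨a, ha⟩ := nonempty_iff_ne_empty.2 hVne
      exact (Finset.disjoint_left.1 hdisj) (h (mem_union_right _ ha)) ha
    have hcard : (W ∪ V).card < u := by omega
    have h1 := hspread _ hss hcard
    rw [hW'] at h1
    have h2 : ((𝓛.filter fun S => tr W T S = V).card : ℝ) ≤
        ((𝓛.filter fun S => W ∪ V ⊆ S).card : ℝ) := by
      have : (𝓛.filter fun S => tr W T S = V).card ≤ (𝓛.filter fun S => W ∪ V ⊆ S).card := by
        apply card_le_card
        intro S hS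
        exact mem_filter.2 ⟨(mem_filter.1 hS).1, hVS S hS⟩
      exact_mod_cast this
    have h3 : ((𝓛.filter fun S => tr W T S = V).card : ℝ) ≤
        lamc / (2 * K * t) ^ (i + j) / x ^ (u - (i + j)) := h2.trans h1.le
    have he : u - (i + j) = u - i - j := by omega
    rw [he] at h3
    set e := u - i - j with hedef
    have hu : u - i = e + j := by omega
    calc ((𝓛.filter fun S => tr W T S = V).card : ℝ) * (x / K) ^ e
        ≤ lamc / (2 * K * t) ^ (i + j) / x ^ e * (x / K) ^ e :=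
          mul_le_mul_of_nonneg_right h3 (by positivity)
      _ = lamc / (2 * K * t) ^ i / K ^ (u - i) * (1 / (2 * (t : ℝ))) ^ j := by
          rw [hu, pow_add, pow_add, div_pow, div_pow, mul_pow (2 * K) (t : ℝ) j, mul_pow 2 K j,
            mul_pow 2 (t : ℝ) j]
          field_simp
          rw [one_pow]
  · -- a set of size `u`
    have h1 : ((𝓛.filter fun S => tr W T S = V).card : ℝ) ≤ 1 := by
      have : (𝓛.filter fun S => tr W T S = V).card ≤ 1 := by
        rw [card_le_one]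
        intro S hS S' hS'
        have h2 := hVS S hS
        have h3 := hVS S' hS'
        have h4 := (h𝓛 S (mem_filter.1 hS).1).1
        have h5 := (h𝓛 S' (mem_filter.1 hS').1).1
        have h6 : S = W ∪ V := (eq_of_subset_of_card_le h2 (by omega)).symm
        have h7 : S' = W ∪ V := (eq_of_subset_of_card_le h3 (by omega)).symm
        rw [h6, h7]
      exact_mod_cast this
    have h8 : u - i - j = 0 := by omega
    rw [h8, pow_zero, mul_one]
    refine h1.trans ?_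
    have hu : u = i + j := by omega
    have h9 : lamc / (2 * K * t) ^ i / K ^ (u - i) * (1 / (2 * (t : ℝ))) ^ j =
        lamc / (2 * K * t) ^ u := by
      rw [← heq, hu, pow_add, one_div, inv_pow, mul_pow (2 * K) (t : ℝ) j, mul_pow 2 K j,
        mul_pow 2 (t : ℝ) j] 
      field_simp
    rw [h9, le_div_iff₀ (by positivity), one_mul]
    exact hRC
  · -- nothing
    have h1 : (𝓛.filter fun S => tr W T S = V).card = 0 := by
      rw [card_eq_zero, filter_eq_empty_iff]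
      intro S hS h
      have h2 := hVS S (mem_filter.2 ⟨hS, h⟩)
      have h3 := card_le_card h2
      rw [hW', (h𝓛 S hS).1] at h3
      omega
    rw [h1]
    simpa using hnn

lemma sum_union_le' {ι : Type*} [DecidableEq ι] (s t : Finset ι) (f : ι → ℝ) (hf : ∀ i, 0 ≤ f i) :
    ∑ i ∈ s ∪ t, f i ≤ ∑ i ∈ s, f i + ∑ i ∈ t, f i := by
  have h := sum_union_inter (s₁ := s) (s₂ := t) (f := f)
  have h2 : 0 ≤ ∑ i ∈ s ∩ t, f i := sum_nonneg fun i _ => hf i
  linarith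

lemma sum_biUnion_le' {ι κ : Type*} [DecidableEq ι] [DecidableEq κ] (s : Finset κ)
    (t : κ → Finset ι) (f : ι → ℝ) (hf : ∀ i, 0 ≤ f i) :
    ∑ i ∈ s.biUnion t, f i ≤ ∑ a ∈ s, ∑ i ∈ t a, f i := by
  induction s using Finset.induction_on with
  | empty => simp
  | insert a s ha ih =>
    rw [biUnion_insert, sum_insert ha]
    exact (sum_union_le' _ _ f hf).trans (add_le_add_right ih _)

/-- The family attached to one hub. -/
lemma hub_family {r : ℝ} (hr0 : 0 ≤ r) {u t k : ℕ} (hk : 1 ≤ k) (hku : k * u ≤ t)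
    (W : Finset X) (𝓛 : Finset (Finset X)) (h𝓛 : ∀ S ∈ 𝓛, S.card = u) {psi : ℝ} (hpsi : 0 ≤ psi)
    (hguard : ∀ T, W ⊆ T → (T \ W).card ≤ t → ∑ S ∈ 𝓛, r ^ (S \ T).card ≤ psi) :
    ∃ 𝒢 : Finset (Finset X), (∀ G ∈ 𝒢, W ⊆ G) ∧
      ∑ G ∈ 𝒢, r ^ G.card ≤ r ^ W.card * ((⌈12 * psi / k⌉₊ + 1 : ℕ) * (1 / 4) ^ k) ∧
      ∀ H, W ⊆ H → 12 * psi + 2 * k ≤ ((𝓛.filter (· ⊆ H)).card : ℝ) → ∃ G ∈ 𝒢, G ⊆ H := by
  have hk0 : (0 : ℝ) < k := by exact_mod_cast hk
  set P : ℕ := ⌈12 * psi / k⌉₊ + 1 with hP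
  have hP1 : 1 ≤ P := by omega
  have hP0 : (0 : ℝ) < P := by exact_mod_cast hP1
  obtain ⟨𝒢, h1, h2, h3⟩ := core_lemma W 𝓛 (fun T => t < (T \ W).card) hr0 hpsi
    (fun T hWT hT => hguard T hWT (not_lt.1 hT)) hk hP1
  have hPge : 12 * psi / k ≤ P := by
    rw [hP]
    push_cast
    have := Nat.le_ceil (12 * psi / k)
    linarith
  refine ⟨𝒢, h1, ?_, ?_⟩
  · have h4 : ∑ G ∈ 𝒢, r ^ G.card = r ^ W.card * ∑ G ∈ 𝒢, r ^ (G \ W).card := by
      rw [mul_sum]
      refine sum_congr rfl fun G hG => ?_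
      rw [← pow_add]
      congr 1
      rw [card_sdiff_of_subset (h1 G hG)]
      have := card_le_card (h1 G hG)
      omega
    rw [h4]
    apply mul_le_mul_of_nonneg_left _ (by positivity)
    refine h2.trans ((core_bound hpsi hk hP1).trans ?_)
    apply mul_le_mul_of_nonneg_left _ hP0.le
    apply pow_le_pow_left₀ (by positivity)
    rw [div_le_iff₀ (by positivity)]
    rw [div_le_iff₀ hk0] at hPge
    nlinarith
  · intro H hWH hd
    have hPle : ((k * P : ℕ) : ℝ) ≤ ((𝓛.filter (· ⊆ H)).card : ℝ) := by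
      refine le_trans ?_ hd
      rw [hP]
      push_cast
      have h5 := Nat.ceil_lt_add_one (a := 12 * psi / k) (by positivity)
      have h6 : (k : ℝ) * (⌈12 * psi / k⌉₊ : ℝ) ≤ k * (12 * psi / k + 1) :=
        mul_le_mul_of_nonneg_left h5.le hk0.le
      have h7 : (k : ℝ) * (12 * psi / k + 1) = 12 * psi + k := by
        field_simp
      nlinarith
    have hPle' : k * P ≤ (𝓛.filter (· ⊆ H)).card := by exact_mod_cast hPle
    rcases h3 H hWH hPle' with h4 | ⟨A, hA, hAk, hcore, _⟩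
    · exact h4
    · exfalso
      have h5 : (bigU A).card ≤ A.card * u := card_bigU_le fun B hB => (h𝓛 B (hA hB)).le
      have h6 : ((W ∪ bigU A) \ W).card ≤ (bigU A).card := by
        rw [union_sdiff_left]
        exact card_le_card sdiff_subset
      have h7 : A.card * u ≤ k * u := Nat.mul_le_mul_right u hAk
      have hcore' : t < ((W ∪ bigU A) \ W).card := hcore
      omega

lemma hub_rW {x K lamc N : ℝ} (hx0 : 0 < x) (hK0 : 0 < K) (hlamc : 0 < lamc) {u i t : ℕ} (ht : 1 ≤ t)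
    (hi : i ≤ u) (hN : lamc / (2 * K * t) ^ i / x ^ (u - i) ≤ N) :
    (x / K) ^ i ≤ N * x ^ u * (2 * (t : ℝ)) ^ u / lamc := by
  have ht0 : (1 : ℝ) ≤ t := by exact_mod_cast ht
  have h1 : lamc ≤ N * ((2 * K * t) ^ i * x ^ (u - i)) := by
    rw [div_div, div_le_iff₀ (by positivity)] at hN
    exact hN
  have hN0 : 0 ≤ N := by
    refine le_trans ?_ hN
    positivity
  rw [le_div_iff₀ hlamc]
  have h2 : (x / K) ^ i * (N * ((2 * K * t) ^ i * x ^ (u - i))) =
      N * x ^ u * (2 * (t : ℝ)) ^ i := by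
    have : x ^ u = x ^ i * x ^ (u - i) := by
      rw [← pow_add]
      congr 1
      omega
    rw [this, div_pow, mul_pow (2 * K) (t : ℝ) i, mul_pow 2 K i, mul_pow 2 (t : ℝ) i]
    field_simp
  have h3 : (x / K) ^ i * lamc ≤ N * x ^ u * (2 * (t : ℝ)) ^ i := by
    rw [← h2]
    exact mul_le_mul_of_nonneg_left h1 (by positivity)
  refine h3.trans ?_
  apply mul_le_mul_of_nonneg_left _ (by positivity)
  exact pow_le_pow_right₀ (by linarith) hi

lemma hub_mu {x K lamc N : ℝ} (hx0 : 0 < x) (hK0 : 0 < K) (hlamc : 0 < lamc) {i e : ℕ} {om : ℝ}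
    (hom : 0 < om) (hN : lamc / om ^ i / x ^ e ≤ N) :
    lamc / om ^ i / K ^ e ≤ N * (x / K) ^ e := by
  have h1 : lamc / om ^ i / K ^ e = lamc / om ^ i / x ^ e * (x / K) ^ e := by
    rw [div_pow]
    field_simp
  rw [h1]
  exact mul_le_mul_of_nonneg_right hN (by positivity)

lemma hub_top {K lamc : ℝ} (hK0 : 0 < K) (hlamc : 0 < lamc) {u i e t : ℕ} (ht : 1 ≤ t)
    (hu : u = i + e) (hRC : (2 * K * t) ^ u ≤ lamc) :
    (2 * (t : ℝ)) ^ e ≤ lamc / (2 * K * t) ^ i / K ^ e := by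
  have ht0 : (0 : ℝ) < t := by exact_mod_cast ht
  rw [div_div, le_div_iff₀ (by positivity)]
  refine le_trans (le_of_eq ?_) hRC
  rw [hu, pow_add, mul_pow (2 * K) (t : ℝ) e, mul_pow 2 K e, mul_pow 2 (t : ℝ) e]
  ring

/-- The data of the hub decomposition of a family of `u`-sets. -/
structure Hub (X : Type*) [Fintype X] [DecidableEq X] where
  x : ℝ
  K : ℝ
  c : ℝ
  lamc : ℝ
  u : ℕ
  t : ℕ
  k : ℕ
  𝓢 : Finset (Finset X)
  τ : Finset X → Finset X
  A : Finset (Finset X)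
  hx0 : 0 < x
  hK : 50 ≤ K
  hu : 1 ≤ u
  hc2 : 2 ≤ c
  hlamc0 : 0 < lamc
  hlamcc : lamc ≤ c
  ht1 : 1 ≤ t
  hk25 : 25 ≤ k
  hkt : k ≤ t
  hku : k * u ≤ t
  hRC : (2 * K * t) ^ u ≤ lamc
  hM : (𝓢.card : ℝ) * x ^ u / c ≤ 1
  hS : ∀ S ∈ 𝓢, S.card = u
  hA0 : ∅ ∈ A
  hAS : ∀ S ∈ 𝓢, τ S ∈ A
  hAu : ∀ W ∈ A, W.card < u
  hAne : ∀ W ∈ A, W ≠ ∅ → ∃ S ∈ 𝓢, τ S = W
  hi : ∀ S ∈ 𝓢, τ S ⊆ S
  hii : ∀ W ∈ A, W ≠ ∅ →
    lamc / (2 * K * t) ^ W.card / x ^ (u - W.card) ≤ ((𝓢.filter fun S => τ S = W).card : ℝ)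
  hiii : ∀ W W', W ⊂ W' → W'.card < u → ((𝓢.filter fun S => τ S = W ∧ W' ⊆ S).card : ℝ) <
    lamc / (2 * K * t) ^ W'.card / x ^ (u - W'.card)

namespace Hub

variable (D : Hub X)

noncomputable def r : ℝ := D.x / D.K
noncomputable def M : ℝ := (D.𝓢.card : ℝ) * D.x ^ D.u / D.c
noncomputable def piece (W : Finset X) : Finset (Finset X) := D.𝓢.filter fun S => D.τ S = W
noncomputable def N (W : Finset X) : ℝ := ((D.piece W).card : ℝ)
noncomputable def mu (W : Finset X) : ℝ := D.N W * D.r ^ (D.u - W.card)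
noncomputable def DD (W : Finset X) : ℝ :=
  D.lamc / (2 * D.K * D.t) ^ W.card / D.K ^ (D.u - W.card)
noncomputable def psi (W : Finset X) : ℝ := D.mu W + D.DD W
/-- A hub with an expected number of sets at least `c`. -/
def heavy (W : Finset X) : Prop := W ≠ ∅ ∧ D.c ≤ D.mu W

lemma K0 : 0 < D.K := by linarith [D.hK]
lemma K1 : 1 ≤ D.K := by linarith [D.hK]
lemma c0 : 0 < D.c := by linarith [D.hc2]
lemma t0 : (0 : ℝ) < D.t := by exact_mod_cast D.ht1
lemma t1 : (1 : ℝ) ≤ D.t := by exact_mod_cast D.ht1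
lemma k0 : (0 : ℝ) < D.k := by
  have := D.hk25
  have h : 0 < D.k := by omega
  exact_mod_cast h
lemma k1 : 1 ≤ D.k := by
  have := D.hk25
  omega
lemma k25 : (25 : ℝ) ≤ D.k := by exact_mod_cast D.hk25
lemma r0 : 0 ≤ D.r := div_nonneg D.hx0.le D.K0.le
lemma M0 : 0 ≤ D.M := by
  unfold M
  have := D.hx0
  have := D.c0
  positivity
lemma M1 : D.M ≤ 1 := D.hM
lemma N0 (W : Finset X) : 0 ≤ D.N W := Nat.cast_nonneg _
lemma mu0 (W : Finset X) : 0 ≤ D.mu W := mul_nonneg (D.N0 W) (pow_nonneg D.r0 _)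
lemma DD0 (W : Finset X) : 0 ≤ D.DD W := by
  unfold DD
  have := D.hlamc0
  have := D.K0
  have := D.t0
  positivity
lemma psi0 (W : Finset X) : 0 ≤ D.psi W := add_nonneg (D.mu0 W) (D.DD0 W)
lemma Ku1 : 1 ≤ D.K ^ D.u := one_le_pow₀ D.K1

lemma piece_prop (W S : Finset X) (h : S ∈ D.piece W) : S.card = D.u ∧ W ⊆ S := by
  obtain ⟨h1, h2⟩ := mem_filter.1 h
  exact ⟨D.hS S h1, h2 ▸ D.hi S h1⟩

lemma guard (W : Finset X) (hW : W ∈ D.A) (T : Finset X) (hWT : W ⊆ T) (hT : (T \ W).card ≤ D.t) :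
    ∑ S ∈ D.piece W, D.r ^ (S \ T).card ≤ D.psi W := by
  refine hub_guard D.hx0 D.K0 D.hlamc0 D.ht1 (D.hAu W hW) (D.piece W) (D.piece_prop W) D.hRC ?_
    hWT hT
  intro W' hW' hW'u
  have h1 := D.hiii W W' hW' hW'u
  rw [← filter_filter] at h1
  exact h1

lemma exists_fam : ∃ Gf : Finset X → Finset (Finset X), ∀ W ∈ D.A, (∀ G ∈ Gf W, W ⊆ G) ∧
    ∑ G ∈ Gf W, D.r ^ G.card ≤
      D.r ^ W.card * ((⌈12 * D.psi W / D.k⌉₊ + 1 : ℕ) * (1 / 4) ^ D.k) ∧
    ∀ H, W ⊆ H → 12 * D.psi W + 2 * D.k ≤ (((D.piece W).filter (· ⊆ H)).card : ℝ) →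
      ∃ G ∈ Gf W, G ⊆ H := by
  have hfam : ∀ W, ∃ 𝒢 : Finset (Finset X), W ∈ D.A → (∀ G ∈ 𝒢, W ⊆ G) ∧
      ∑ G ∈ 𝒢, D.r ^ G.card ≤
        D.r ^ W.card * ((⌈12 * D.psi W / D.k⌉₊ + 1 : ℕ) * (1 / 4) ^ D.k) ∧
      ∀ H, W ⊆ H → 12 * D.psi W + 2 * D.k ≤ (((D.piece W).filter (· ⊆ H)).card : ℝ) →
        ∃ G ∈ 𝒢, G ⊆ H := by
    intro W
    by_cases hW : W ∈ D.A
    · obtain ⟨𝒢, h1, h2, h3⟩ := hub_family D.r0 D.k1 D.hku W (D.piece W)
        (fun S hS => (D.piece_prop W S hS).1) (D.psi0 W) (D.guard W hW)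
      exact ⟨𝒢, fun _ => ⟨h1, h2, h3⟩⟩
    · exact ⟨∅, fun h => absurd h hW⟩
  choose Gf hGf using hfam
  exact ⟨Gf, hGf⟩

lemma Nsum : ∑ W ∈ D.A, D.N W = (D.𝓢.card : ℝ) := by
  have := card_eq_sum_card_fiberwise (s := D.𝓢) (t := D.A) (f := D.τ) (fun S hS => D.hAS S hS)
  rw [this]
  push_cast
  rfl

lemma muD (W : Finset X) (hW : W ∈ D.A) (hne : W ≠ ∅) : D.DD W ≤ D.mu W :=
  hub_mu D.hx0 D.K0 D.hlamc0 (by have := D.K0; have := D.t0; positivity) (D.hii W hW hne)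

lemma top (W : Finset X) (hW : W ∈ D.A) : (2 * (D.t : ℝ)) ^ (D.u - W.card) ≤ D.DD W := by
  have := D.hAu W hW
  exact hub_top D.K0 D.hlamc0 D.ht1 (by omega) D.hRC

lemma rsplit (W : Finset X) (hW : W ∈ D.A) : D.r ^ W.card * D.r ^ (D.u - W.card) = D.r ^ D.u := by
  rw [← pow_add]
  congr 1
  have := D.hAu W hW
  omega

lemma ru : D.r ^ D.u = D.x ^ D.u / D.K ^ D.u := by
  rw [r, div_pow]

lemma Mc : (D.𝓢.card : ℝ) * D.x ^ D.u = D.M * D.c := by
  have := D.c0
  rw [M]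
  field_simp

lemma rW (W : Finset X) (hW : W ∈ D.A) (hne : W ≠ ∅) :
    D.r ^ W.card ≤ D.N W * (D.x ^ D.u * (2 * (D.t : ℝ)) ^ D.u / D.lamc) := by
  have h4 := hub_rW D.hx0 D.K0 D.hlamc0 D.ht1 (D.hAu W hW).le (D.hii W hW hne)
  refine h4.trans (le_of_eq ?_)
  unfold N piece
  ring

lemma tu : (2 * (D.t : ℝ)) ^ D.u * D.K ^ D.u ≤ D.lamc := by
  rw [← mul_pow]
  refine le_trans (le_of_eq ?_) D.hRC
  ring_nf

lemma cost_heavy : ∑ W ∈ D.A.filter D.heavy, D.r ^ W.card ≤ D.M / D.K ^ D.u := by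
  have h2 : ∀ W ∈ D.A.filter D.heavy, D.r ^ W.card ≤ D.N W * D.r ^ D.u / D.c := by
    intro W hW
    obtain ⟨h3, _, h4⟩ := mem_filter.1 hW
    rw [le_div_iff₀ D.c0, ← D.rsplit W h3]
    have h5 : D.r ^ W.card * D.c ≤ D.r ^ W.card * D.mu W :=
      mul_le_mul_of_nonneg_left h4 (pow_nonneg D.r0 _)
    refine h5.trans (le_of_eq ?_)
    unfold mu
    ring
  refine (sum_le_sum h2).trans ?_
  have h3 : ∑ W ∈ D.A.filter D.heavy, D.N W * D.r ^ D.u / D.c ≤
      ∑ W ∈ D.A, D.N W * D.r ^ D.u / D.c :=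
    sum_le_sum_of_subset_of_nonneg (filter_subset _ _) fun W _ _ => by
      have := D.N0 W
      have := D.r0
      have := D.c0
      positivity
  refine h3.trans (le_of_eq ?_)
  have := D.c0
  have := D.K0
  rw [← sum_div, ← sum_mul, D.Nsum, D.ru, M]
  field_simp

lemma psi_le (W : Finset X) (hW : W ∈ D.A) (hh : ¬ D.heavy W) : D.psi W ≤ 2 * D.c := by
  unfold psi
  by_cases hne : W = ∅
  · subst hne
    have h5 : D.mu ∅ ≤ D.c := by
      unfold mu
      simp only [card_empty, Nat.sub_zero]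
      have h6 : D.N ∅ ≤ (D.𝓢.card : ℝ) := by
        unfold N piece
        exact_mod_cast card_filter_le _ _
      have h7 : D.N ∅ * D.r ^ D.u ≤ (D.𝓢.card : ℝ) * D.r ^ D.u :=
        mul_le_mul_of_nonneg_right h6 (pow_nonneg D.r0 _)
      refine h7.trans ?_
      have hKu := D.Ku1
      rw [D.ru, ← mul_div_assoc, D.Mc, div_le_iff₀ (by linarith)]
      have hM0 := D.M0
      have hM1 := D.M1
      have hc := D.c0
      nlinarith
    have h6 : D.DD ∅ ≤ D.c := by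
      unfold DD
      simp only [card_empty, pow_zero, div_one, Nat.sub_zero]
      have hKu := D.Ku1
      rw [div_le_iff₀ (by linarith)]
      have := D.hlamcc
      have hc := D.c0
      nlinarith
    linarith
  · have h5 : D.mu W < D.c := by
      by_contra hcon
      exact hh ⟨hne, not_lt.1 hcon⟩
    have h6 := D.muD W hW hne
    linarith

lemma P_le (W : Finset X) (hW : W ∈ D.A) (hh : ¬ D.heavy W) :
    ((⌈12 * D.psi W / D.k⌉₊ + 1 : ℕ) : ℝ) ≤ 2 * D.c := by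
  have hk0 := D.k0
  have hk25 := D.k25
  have h0 := D.psi0 W
  have h5 := Nat.ceil_lt_add_one (a := 12 * D.psi W / D.k) (by positivity)
  have h6 : 12 * D.psi W / D.k ≤ D.c := by
    rw [div_le_iff₀ hk0]
    have := D.psi_le W hW hh
    have := D.c0
    nlinarith
  push_cast
  have := D.hc2
  linarith

lemma rsum : ∑ W ∈ D.A, D.r ^ W.card ≤ 2 * D.c := by
  have h3 : ∀ W ∈ D.A, D.r ^ W.card ≤
      (if W = ∅ then 1 else 0) + D.N W * (D.x ^ D.u * (2 * (D.t : ℝ)) ^ D.u / D.lamc) := by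
    intro W hW
    by_cases hne : W = ∅
    · subst hne
      have := D.N0 ∅
      simp only [card_empty, pow_zero, if_true]
      have h4 : 0 ≤ D.N ∅ * (D.x ^ D.u * (2 * (D.t : ℝ)) ^ D.u / D.lamc) := by
        have := D.hx0
        have := D.t0
        have := D.hlamc0
        positivity
      linarith
    · rw [if_neg hne, zero_add]
      exact D.rW W hW hne
  refine (sum_le_sum h3).trans ?_
  rw [sum_add_distrib, ← sum_mul, D.Nsum, sum_ite_eq' D.A ∅, if_pos D.hA0]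
  have h1 := D.hx0
  have h2 := D.hlamc0
  have h4 : (D.𝓢.card : ℝ) * (D.x ^ D.u * (2 * (D.t : ℝ)) ^ D.u / D.lamc) ≤ D.c := by
    rw [← mul_div_assoc, ← mul_assoc, D.Mc, div_le_iff₀ h2]
    have h5 : (2 * (D.t : ℝ)) ^ D.u ≤ D.lamc := by
      have h6 := D.tu
      have h7 := D.Ku1
      have h8 : 0 ≤ (2 * (D.t : ℝ)) ^ D.u := by
        have := D.t0
        positivity
      nlinarith
    have hM0 := D.M0
    have hM1 := D.M1
    have hc := D.c0
    have h8 : 0 ≤ (2 * (D.t : ℝ)) ^ D.u := by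
      have := D.t0
      positivity
    have h9 : D.M * D.c * (2 * (D.t : ℝ)) ^ D.u ≤ 1 * D.c * (2 * (D.t : ℝ)) ^ D.u := by
      apply mul_le_mul_of_nonneg_right _ h8
      exact mul_le_mul_of_nonneg_right hM1 hc.le
    nlinarith
  have := D.hc2
  linarith

/-- The integral family built from a choice of families at the hubs. -/
noncomputable def fam (Gf : Finset X → Finset (Finset X)) : Finset (Finset X) :=
  (D.A.filter D.heavy) ∪ (D.A.filter fun W => ¬ D.heavy W).biUnion Gf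

lemma fam_cost (Gf : Finset X → Finset (Finset X))
    (hGf : ∀ W ∈ D.A, ∑ G ∈ Gf W, D.r ^ G.card ≤
      D.r ^ W.card * ((⌈12 * D.psi W / D.k⌉₊ + 1 : ℕ) * (1 / 4) ^ D.k)) :
    ∑ G ∈ D.fam Gf, D.r ^ G.card ≤ D.M / D.K ^ D.u + 4 * D.c ^ 2 * (1 / 4) ^ D.k := by
  have hr := D.r0
  refine (sum_union_le' _ _ _ fun G => pow_nonneg hr _).trans ?_
  refine add_le_add D.cost_heavy ?_
  refine (sum_biUnion_le' _ _ _ fun G => pow_nonneg hr _).trans ?_
  have h1 : ∀ W ∈ D.A.filter (fun W => ¬ D.heavy W), ∑ G ∈ Gf W, D.r ^ G.card ≤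
      D.r ^ W.card * (2 * D.c * (1 / 4) ^ D.k) := by
    intro W hW
    obtain ⟨h3, h4⟩ := mem_filter.1 hW
    refine (hGf W h3).trans ?_
    apply mul_le_mul_of_nonneg_left _ (pow_nonneg hr _)
    apply mul_le_mul_of_nonneg_right (D.P_le W h3 h4) (by positivity)
  refine (sum_le_sum h1).trans ?_
  rw [← sum_mul]
  have h2 : ∑ W ∈ D.A.filter (fun W => ¬ D.heavy W), D.r ^ W.card ≤ 2 * D.c :=
    (sum_le_sum_of_subset_of_nonneg (filter_subset _ _) fun W _ _ => pow_nonneg hr _).trans D.rsum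
  have hc := D.c0
  calc (∑ W ∈ D.A.filter (fun W => ¬ D.heavy W), D.r ^ W.card) * (2 * D.c * (1 / 4) ^ D.k)
      ≤ 2 * D.c * (2 * D.c * (1 / 4) ^ D.k) :=
        mul_le_mul_of_nonneg_right h2 (by positivity)
    _ = 4 * D.c ^ 2 * (1 / 4) ^ D.k := by ring

/-- The new weights at the hubs. -/
noncomputable def y (U : Finset X) : ℝ :=
  if U ∈ D.A ∧ U ≠ ∅ ∧ ¬ D.heavy U then 25 * D.mu U / D.c else 0

lemma y0 (U : Finset X) : 0 ≤ D.y U := by
  unfold y
  split_ifs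
  · have := D.mu0 U
    have := D.c0
    positivity
  · exact le_rfl

lemma y_supp (U : Finset X) (hU : D.y U ≠ 0) : U ≠ ∅ ∧ U.card < D.u := by
  unfold y at hU
  split_ifs at hU with h
  · exact ⟨h.2.1, D.hAu U h.1⟩
  · exact absurd rfl hU

lemma y_cost : ∑ U, D.y U * D.x ^ U.card ≤ 25 / D.K * D.M := by
  have h1 : ∀ U ∈ (univ : Finset (Finset X)), U ∉ D.A → D.y U * D.x ^ U.card = 0 := by
    intro U _ hU
    unfold y
    rw [if_neg (fun h => hU h.1), zero_mul]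
  rw [← sum_subset (subset_univ D.A) h1]
  have hx := D.hx0
  have hc := D.c0
  have hK0 := D.K0
  have h2 : ∀ U ∈ D.A, D.y U * D.x ^ U.card ≤ 25 / D.K * (D.N U * D.x ^ D.u / D.c) := by
    intro U hU
    have h5 := D.N0 U
    unfold y
    split_ifs
    · have h3 := D.hAu U hU
      have h4 : D.r ^ (D.u - U.card) * D.x ^ U.card ≤ D.x ^ D.u / D.K := by
        rw [r, div_pow, div_mul_eq_mul_div, ← pow_add]
        have : D.u - U.card + U.card = D.u := by omega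
        rw [this]
        apply div_le_div_of_nonneg_left (by positivity) hK0
        calc D.K = D.K ^ 1 := (pow_one D.K).symm
          _ ≤ D.K ^ (D.u - U.card) := pow_le_pow_right₀ D.K1 (by omega)
      unfold mu
      calc 25 * (D.N U * D.r ^ (D.u - U.card)) / D.c * D.x ^ U.card
          = 25 * D.N U / D.c * (D.r ^ (D.u - U.card) * D.x ^ U.card) := by ring
        _ ≤ 25 * D.N U / D.c * (D.x ^ D.u / D.K) :=
            mul_le_mul_of_nonneg_left h4 (by positivity)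
        _ = 25 / D.K * (D.N U * D.x ^ D.u / D.c) := by
            field_simp
    · rw [zero_mul]
      positivity
  refine (sum_le_sum h2).trans (le_of_eq ?_)
  rw [← mul_sum, ← sum_div, ← sum_mul, D.Nsum, M]

/-- The number of sets of `𝓢` inside `H`, hub by hub. -/
lemma card_filter_eq (H : Finset X) :
    ((D.𝓢.filter (· ⊆ H)).card : ℝ) =
      ∑ W ∈ D.A, (((D.piece W).filter (· ⊆ H)).card : ℝ) := by
  have := card_eq_sum_card_fiberwise (s := D.𝓢.filter (· ⊆ H)) (t := D.A) (f := D.τ)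
    (fun S hS => D.hAS S (mem_filter.1 hS).1)
  rw [this]
  push_cast
  refine sum_congr rfl fun W _ => ?_
  unfold piece
  rw [filter_comm]

lemma two_k_le_mu (W : Finset X) (hW : W ∈ D.A) (hne : W ≠ ∅) : 2 * (D.k : ℝ) ≤ D.mu W := by
  have h1 := D.hAu W hW
  have h2 := D.top W hW
  have h3 := D.muD W hW hne
  have ht1 := D.t1
  have h4 : (2 * (D.t : ℝ)) ^ 1 ≤ (2 * (D.t : ℝ)) ^ (D.u - W.card) :=
    pow_le_pow_right₀ (by linarith) (by omega)
  rw [pow_one] at h4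
  have h5 : (D.k : ℝ) ≤ D.t := by exact_mod_cast D.hkt
  linarith

lemma mass (Gf : Finset X → Finset (Finset X))
    (h1 : ∀ W ∈ D.A, ∀ G ∈ Gf W, W ⊆ G)
    (h3 : ∀ W ∈ D.A, ∀ H, W ⊆ H → 12 * D.psi W + 2 * D.k ≤ (((D.piece W).filter (· ⊆ H)).card : ℝ) →
      ∃ G ∈ Gf W, G ⊆ H)
    (H : Finset X) (hH : ∀ G ∈ D.fam Gf, ¬ G ⊆ H) :
    ((D.𝓢.filter (· ⊆ H)).card : ℝ) / D.c ≤
      13 * (D.M + D.lamc / D.c) / D.K ^ D.u + ∑ U ∈ H.powerset, D.y U := by
  have hc := D.c0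
  have hempty : ¬ D.heavy (∅ : Finset X) := fun h => h.1 rfl
  have hdiff : ∀ W ∈ D.A, ¬ D.heavy W → W ⊆ H →
      (((D.piece W).filter (· ⊆ H)).card : ℝ) < 12 * D.psi W + 2 * D.k := by
    intro W hW hh hWH
    by_contra hcon
    obtain ⟨G, hG, hGH⟩ := h3 W hW H hWH (not_lt.1 hcon)
    apply hH G _ hGH
    apply mem_union_right
    exact mem_biUnion.2 ⟨W, mem_filter.2 ⟨hW, hh⟩, hG⟩
  have hnot : ∀ W, ¬ W ⊆ H → ((D.piece W).filter (· ⊆ H)).card = 0 := by
    intro W hW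
    rw [card_eq_zero, filter_eq_empty_iff]
    intro S hS hSH
    exact hW ((D.piece_prop W S hS).2.trans hSH)
  -- hubs
  have hhub : ∀ W ∈ D.A.erase ∅, (((D.piece W).filter (· ⊆ H)).card : ℝ) / D.c ≤
      if W ⊆ H then D.y W else 0 := by
    intro W hW
    obtain ⟨hne, hWA⟩ := mem_erase.1 hW
    split_ifs with hWH
    · have hh : ¬ D.heavy W := by
        intro hh
        exact hH W (mem_union_left _ (mem_filter.2 ⟨hWA, hh⟩)) hWH
      have h4 := hdiff W hWA hh hWH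
      have h5 := D.two_k_le_mu W hWA hne
      have h6 := D.muD W hWA hne
      unfold y
      rw [if_pos ⟨hWA, hne, hh⟩]
      apply div_le_div_of_nonneg_right _ hc.le
      unfold psi at h4
      linarith
    · rw [hnot W hWH]
      simp
  have hsum : ∑ W ∈ D.A.erase ∅, (((D.piece W).filter (· ⊆ H)).card : ℝ) / D.c ≤
      ∑ U ∈ H.powerset, D.y U := by
    refine (sum_le_sum hhub).trans ?_
    rw [← sum_filter]
    apply sum_le_sum_of_subset_of_nonneg
    · intro W hW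
      exact mem_powerset.2 (mem_filter.1 hW).2
    · intro U _ _
      exact D.y0 U
  -- the part without hub
  have hfree : (((D.piece ∅).filter (· ⊆ H)).card : ℝ) / D.c ≤
      13 * (D.M + D.lamc / D.c) / D.K ^ D.u := by
    have h4 := hdiff ∅ D.hA0 hempty (empty_subset H)
    have hKu := D.Ku1
    have hKu0 : 0 < D.K ^ D.u := by linarith
    have h5 : D.mu ∅ / D.c ≤ D.M / D.K ^ D.u := by
      unfold mu
      simp only [card_empty, Nat.sub_zero]
      have h6 : D.N ∅ ≤ (D.𝓢.card : ℝ) := by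
        unfold N piece
        exact_mod_cast card_filter_le _ _
      have h7 : D.N ∅ * D.r ^ D.u ≤ (D.𝓢.card : ℝ) * D.r ^ D.u :=
        mul_le_mul_of_nonneg_right h6 (pow_nonneg D.r0 _)
      calc D.N ∅ * D.r ^ D.u / D.c ≤ (D.𝓢.card : ℝ) * D.r ^ D.u / D.c :=
            div_le_div_of_nonneg_right h7 hc.le
        _ = D.M / D.K ^ D.u := by
            rw [D.ru, M]
            field_simp
    have h6 : D.DD ∅ / D.c = D.lamc / D.c / D.K ^ D.u := by
      unfold DD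
      simp only [card_empty, pow_zero, div_one, Nat.sub_zero]
      field_simp
    have h7 : 2 * (D.k : ℝ) / D.c ≤ D.lamc / D.c / D.K ^ D.u := by
      rw [div_div, div_le_div_iff₀ hc (by positivity)]
      have h8 := D.tu
      have ht1 := D.t1
      have h9 : (2 * (D.t : ℝ)) ^ 1 ≤ (2 * (D.t : ℝ)) ^ D.u :=
        pow_le_pow_right₀ (by linarith) D.hu
      rw [pow_one] at h9
      have h10 : (D.k : ℝ) ≤ D.t := by exact_mod_cast D.hkt
      have h11 : 2 * (D.k : ℝ) * D.K ^ D.u ≤ D.lamc := by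
        have h12 : 2 * (D.k : ℝ) ≤ (2 * (D.t : ℝ)) ^ D.u := by linarith
        nlinarith
      nlinarith
    have h8 : (((D.piece ∅).filter (· ⊆ H)).card : ℝ) / D.c ≤
        (12 * D.psi ∅ + 2 * D.k) / D.c := div_le_div_of_nonneg_right h4.le hc.le
    refine h8.trans ?_
    have h9 : (12 * D.psi ∅ + 2 * D.k) / D.c =
        12 * (D.mu ∅ / D.c) + 12 * (D.DD ∅ / D.c) + 2 * (D.k : ℝ) / D.c := by
      unfold psi
      field_simp
    rw [h9, h6]
    have h10 : 13 * (D.M + D.lamc / D.c) / D.K ^ D.u =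
        13 * (D.M / D.K ^ D.u) + 13 * (D.lamc / D.c / D.K ^ D.u) := by
      field_simp
    rw [h10]
    have h11 : 0 ≤ D.M / D.K ^ D.u := div_nonneg D.M0 hKu0.le
    linarith
  rw [D.card_filter_eq, sum_div, ← add_sum_erase _ _ D.hA0]
  exact add_le_add hfree hsum

end Hub

/-- **Very small weights.**  A family of `u`-sets whose weight `2^(-a)` is tiny in the sense of `hRC`
is replaced by a function on smaller sets of much lower cost and a cheap family. -/
theorem regimeC {x K : ℝ} (hx0 : 0 < x) (hK : 50 ≤ K) {u a : ℕ} (hu : 1 ≤ u) (hua : u ≤ a)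
    (ha : 5 ≤ a) (𝓢 : Finset (Finset X)) (h𝓢 : ∀ S ∈ 𝓢, S.card = u)
    (hRC : ((a : ℝ) + 1) ^ 2 * (2 * K * ((5 * a ^ 2 : ℕ) : ℝ)) ^ u ≤ 2 ^ a)
    (hM : (𝓢.card : ℝ) * x ^ u / 2 ^ a ≤ 1) :
    ∃ (y : Finset X → ℝ) (𝒢 : Finset (Finset X)),
      (∀ U, 0 ≤ y U) ∧ (∀ U, y U ≠ 0 → U ≠ ∅ ∧ U.card < u) ∧
      ∑ U, y U * x ^ U.card ≤ 25 / K * ((𝓢.card : ℝ) * x ^ u / 2 ^ a) ∧
      ∑ G ∈ 𝒢, (x / K) ^ G.card ≤ ((𝓢.card : ℝ) * x ^ u / 2 ^ a) / K ^ u +
        4 * (2 ^ a) ^ 2 * (1 / 4) ^ (5 * a) ∧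
      ∀ H, (∀ G ∈ 𝒢, ¬ G ⊆ H) → ((𝓢.filter (· ⊆ H)).card : ℝ) / 2 ^ a ≤
        13 * ((𝓢.card : ℝ) * x ^ u / 2 ^ a + 1 / ((a : ℝ) + 1) ^ 2) / K ^ u +
          ∑ U ∈ H.powerset, y U := by
  have hK0 : (0 : ℝ) < K := by linarith
  have hup : 0 < u := hu
  have hc0 : (0 : ℝ) < 2 ^ a := by positivity
  have ha0 : (0 : ℝ) < ((a : ℝ) + 1) ^ 2 := by positivity
  have hlam1 : 1 / ((a : ℝ) + 1) ^ 2 ≤ 1 := by
    rw [div_le_one ha0]
    have : (0 : ℝ) ≤ a := Nat.cast_nonneg a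
    nlinarith
  have ht1 : 1 ≤ 5 * a ^ 2 := by
    have : 1 ≤ a ^ 2 := Nat.one_le_pow _ _ (by omega)
    omega
  have ht0 : (0 : ℝ) < ((5 * a ^ 2 : ℕ) : ℝ) := by exact_mod_cast ht1
  have hom0 : 0 < 2 * K * ((5 * a ^ 2 : ℕ) : ℝ) := by positivity
  set lamc : ℝ := 1 / ((a : ℝ) + 1) ^ 2 * 2 ^ a with hlamc
  have hlamc0 : 0 < lamc := by positivity
  have hn0 : ∀ j, 0 < lamc / (2 * K * ((5 * a ^ 2 : ℕ) : ℝ)) ^ j / x ^ (u - j) := fun j => by
    positivity
  obtain ⟨τ, hi, hii, hiii⟩ := exists_spread hup _ hn0 𝓢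
  let D : Hub X :=
    { x := x
      K := K
      c := 2 ^ a
      lamc := lamc
      u := u
      t := 5 * a ^ 2
      k := 5 * a
      𝓢 := 𝓢
      τ := τ
      A := insert ∅ (𝓢.image τ)
      hx0 := hx0
      hK := hK
      hu := hu
      hc2 := by
        calc (2 : ℝ) = 2 ^ 1 := by norm_num
          _ ≤ 2 ^ a := pow_le_pow_right₀ (by norm_num) (by omega)
      hlamc0 := hlamc0
      hlamcc := by
        rw [hlamc]
        nlinarith
      ht1 := ht1
      hk25 := by omega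
      hkt := by nlinarith
      hku := by nlinarith
      hRC := by
        rw [hlamc, div_mul_eq_mul_div, one_mul, le_div_iff₀ ha0, mul_comm]
        exact hRC
      hM := hM
      hS := h𝓢
      hA0 := mem_insert_self _ _
      hAS := fun S hS => mem_insert_of_mem (mem_image_of_mem _ hS)
      hAu := by
        intro W hW
        rcases mem_insert.1 hW with rfl | hW
        · simpa using hup
        · obtain ⟨S, hS, rfl⟩ := mem_image.1 hW
          exact (hi S hS).2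
      hAne := by
        intro W hW hne
        rcases mem_insert.1 hW with rfl | hW
        · exact absurd rfl hne
        · exact mem_image.1 hW
      hi := fun S hS => (hi S hS).1
      hii := by
        intro W hW hne
        apply hii W hne
        rcases mem_insert.1 hW with rfl | hW
        · exact absurd rfl hne
        · exact mem_image.1 hW
      hiii := hiii }
  obtain ⟨Gf, hGf⟩ := D.exists_fam
  refine ⟨D.y, D.fam Gf, D.y0, D.y_supp, D.y_cost, ?_, ?_⟩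
  · exact D.fam_cost Gf fun W hW => (hGf W hW).2.1
  · intro H hH
    have h1 := D.mass Gf (fun W hW => (hGf W hW).1) (fun W hW => (hGf W hW).2.2) H hH
    refine h1.trans (le_of_eq ?_)
    have : D.lamc / D.c = 1 / ((a : ℝ) + 1) ^ 2 := by
      change lamc / 2 ^ a = _
      rw [hlamc]
      field_simp
    rw [this]
    rfl

end Vale.Agent.Lib.P034Univ
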