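import Vale.Agent.Lib.P034Univ.RegimeB

/-!
# One weight class, one size
-/

namespace Vale.Agent.Lib.P034Univ

open Finset
open scoped Nat
open Classical

set_option linter.unusedSectionVars false
set_option linter.unusedVariables false

variable {X : Type*} [Fintype X] [DecidableEq X]

lemma rc_nat (v : ℕ) (hv : 10 ≤ v) : 2 * v ^ 2 + 346 * v + 20 ≤ 10 * 2 ^ v := by
  induction v, hv using Nat.le_induction with
  | base => norm_num
  | succ v hv ih =>
    have h1 : 2 * (v + 1) ^ 2 + 346 * (v + 1) + 20 ≤ 2 * (2 * v ^ 2 + 346 * v + 20) := by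
      nlinarith
    calc 2 * (v + 1) ^ 2 + 346 * (v + 1) + 20 ≤ 2 * (2 * v ^ 2 + 346 * v + 20) := h1
      _ ≤ 2 * (10 * 2 ^ v) := Nat.mul_le_mul_left 2 ih
      _ = 10 * 2 ^ (v + 1) := by ring

/-- The condition of the regime of very small weights. -/
lemma regimeC_num {u a : ℕ} (hu : 1 ≤ u) (ha : 2 ^ (10 * u) ≤ a) :
    ((a : ℝ) + 1) ^ 2 * (2 * (2 : ℝ) ^ 320 * ((5 * a ^ 2 : ℕ) : ℝ)) ^ u ≤ 2 ^ a := by
  have ha0 : a ≠ 0 := by
    have : 0 < 2 ^ (10 * u) := by positivity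
    omega
  set v := Nat.log 2 a with hv
  have hv1 : 10 * u ≤ v := Nat.le_log_of_pow_le (by norm_num) ha
  have hv2 : 2 ^ v ≤ a := Nat.pow_log_le_self 2 ha0
  have hv3 : a < 2 ^ (v + 1) := Nat.lt_pow_succ_log_self (by norm_num) a
  have hnat : (a + 1) ^ 2 * (2 * 2 ^ 320 * (5 * a ^ 2)) ^ u ≤ 2 ^ a := by
    have h1 : (a + 1) ^ 2 ≤ 2 ^ (2 * v + 2) := by
      calc (a + 1) ^ 2 ≤ (2 ^ (v + 1)) ^ 2 := Nat.pow_le_pow_left hv3 2
        _ = 2 ^ (2 * v + 2) := by
            rw [← pow_mul]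
            congr 1
            ring
    have h2 : 2 * 2 ^ 320 * (5 * a ^ 2) ≤ 2 ^ (2 * v + 326) := by
      have h3 : a ^ 2 ≤ 2 ^ (2 * v + 2) := by
        calc a ^ 2 ≤ (2 ^ (v + 1)) ^ 2 := Nat.pow_le_pow_left hv3.le 2
          _ = 2 ^ (2 * v + 2) := by
              rw [← pow_mul]
              congr 1
              ring
      calc 2 * 2 ^ 320 * (5 * a ^ 2) ≤ 2 * 2 ^ 320 * (2 ^ 3 * 2 ^ (2 * v + 2)) := by
            apply Nat.mul_le_mul_left
            exact Nat.mul_le_mul (by norm_num) h3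
        _ = 2 ^ (2 * v + 326) := by
            rw [show 2 * v + 326 = 1 + (320 + (3 + (2 * v + 2))) by ring, pow_add 2 1, pow_add 2 320,
              pow_add 2 3, pow_one, mul_assoc]
    have h4 : (2 * 2 ^ 320 * (5 * a ^ 2)) ^ u ≤ 2 ^ ((2 * v + 326) * u) := by
      rw [pow_mul]
      exact Nat.pow_le_pow_left h2 u
    have h5 : (2 * v + 2) + (2 * v + 326) * u ≤ a := by
      have hv10 : 10 ≤ v := by omega
      have h6 := rc_nat v hv10
      have h7 : 10 * ((2 * v + 2) + (2 * v + 326) * u) ≤ 2 * v ^ 2 + 346 * v + 20 := by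
        have h8 : (2 * v + 326) * (10 * u) ≤ (2 * v + 326) * v := Nat.mul_le_mul_left _ hv1
        nlinarith
      omega
    calc (a + 1) ^ 2 * (2 * 2 ^ 320 * (5 * a ^ 2)) ^ u
        ≤ 2 ^ (2 * v + 2) * 2 ^ ((2 * v + 326) * u) := Nat.mul_le_mul h1 h4
      _ = 2 ^ ((2 * v + 2) + (2 * v + 326) * u) := (pow_add _ _ _).symm
      _ ≤ 2 ^ a := Nat.pow_le_pow_right (by norm_num) h5
  exact_mod_cast hnat

/-- **One weight class.** -/
theorem class_step {x : ℝ} (hx0 : 0 < x) (hx1 : x ≤ 1) {u : ℕ} (hu : 1 ≤ u) (a : ℕ)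
    (𝓢 : Finset (Finset X)) (h𝓢 : ∀ S ∈ 𝓢, S.card = u)
    (hM : (𝓢.card : ℝ) * x ^ u / 2 ^ a ≤ 1) :
    ∃ (y : Finset X → ℝ) (𝒢 : Finset (Finset X)),
      (∀ U, 0 ≤ y U) ∧ (∀ U, y U ≠ 0 → U ≠ ∅ ∧ U.card < u) ∧
      ∑ U, y U * x ^ U.card ≤ ((𝓢.card : ℝ) * x ^ u / 2 ^ a) / 2 ∧
      ∑ G ∈ 𝒢, (x / 2 ^ 320) ^ G.card ≤
        ((𝓢.card : ℝ) * x ^ u / 2 ^ a) / 2 ^ (100 * u) + 1 / 2 ^ (a + u + 4) ∧
      (∀ H, (∀ G ∈ 𝒢, ¬ G ⊆ H) → ((𝓢.filter (· ⊆ H)).card : ℝ) / 2 ^ a ≤
        ((𝓢.card : ℝ) * x ^ u / 2 ^ a + 1 / ((a : ℝ) + 1) ^ 2) / 2 ^ (u + 3) +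
          ∑ U ∈ H.powerset, y U) ∧
      (a ≤ 160 * u → ∀ H, (∀ G ∈ 𝒢, ¬ G ⊆ H) → (𝓢.filter (· ⊆ H)).card = 0) := by
  set M : ℝ := (𝓢.card : ℝ) * x ^ u / 2 ^ a with hMdef
  have hM0 : 0 ≤ M := by positivity
  have hlam : (0 : ℝ) < 1 / ((a : ℝ) + 1) ^ 2 := by positivity
  have h2u : (0 : ℝ) < 2 ^ (u + 3) := by positivity
  by_cases hA : a ≤ 160 * u
  · -- large weights: take all sets
    have hz : ∀ H, (∀ G ∈ 𝓢, ¬ G ⊆ H) → (𝓢.filter (· ⊆ H)).card = 0 := by
      intro H hH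
      rw [card_eq_zero, filter_eq_empty_iff]
      exact hH
    refine ⟨fun _ => 0, 𝓢, fun _ => le_rfl, fun U hU => absurd rfl hU, ?_, ?_, ?_, fun _ => hz⟩
    · simp only [zero_mul, sum_const_zero]
      positivity
    · have h1 : ∀ G ∈ 𝓢, (x / 2 ^ 320) ^ G.card = (x / 2 ^ 320) ^ u := fun G hG => by
        rw [h𝓢 G hG]
      rw [sum_congr rfl h1, sum_const, nsmul_eq_mul]
      have h2 : (𝓢.card : ℝ) * (x / 2 ^ 320) ^ u = M * (2 ^ a / 2 ^ (320 * u)) := by
        rw [div_pow, ← pow_mul, hMdef]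
        field_simp
      rw [h2]
      have h3 : (2 : ℝ) ^ a / 2 ^ (320 * u) ≤ 1 / 2 ^ (100 * u) := by
        rw [div_le_div_iff₀ (by positivity) (by positivity), one_mul, ← pow_add]
        exact pow_le_pow_right₀ (by norm_num) (by omega)
      have h4 : M * (2 ^ a / 2 ^ (320 * u)) ≤ M * (1 / 2 ^ (100 * u)) :=
        mul_le_mul_of_nonneg_left h3 hM0
      have h5 : M * (1 / 2 ^ (100 * u)) = M / 2 ^ (100 * u) := by ring
      have h6 : (0 : ℝ) ≤ 1 / 2 ^ (a + u + 4) := by positivity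
      linarith
    · intro H hH
      rw [hz H hH]
      simp only [Nat.cast_zero, zero_div, sum_const_zero, add_zero]
      positivity
  · push Not at hA
    by_cases hB : a < 2 ^ (10 * u)
    · -- intermediate weights
      obtain ⟨𝒢, h1, h2⟩ := regimeB hx0 hx1 hu hA hB 𝓢 h𝓢 hM
      refine ⟨fun _ => 0, 𝒢, fun _ => le_rfl, fun U hU => absurd rfl hU, ?_, ?_, ?_,
        fun h => absurd h (by omega)⟩
      · simp only [zero_mul, sum_const_zero]
        positivity
      · refine h1.trans (add_le_add ?_ ?_)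
        · apply div_le_div_of_nonneg_left hM0 (by positivity)
          exact pow_le_pow_right₀ (by norm_num) (by omega)
        · apply div_le_div_of_nonneg_left (by norm_num) (by positivity)
          exact pow_le_pow_right₀ (by norm_num) (by omega)
      · intro H hH
        refine (h2 H hH).trans ?_
        simp only [sum_const_zero, add_zero]
        have h3 : 1 / (2 ^ (u + 3) * ((a : ℝ) + 1) ^ 2) = (1 / ((a : ℝ) + 1) ^ 2) / 2 ^ (u + 3) := by
          field_simp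
        rw [h3]
        apply div_le_div_of_nonneg_right _ h2u.le
        linarith
    · -- very small weights
      push Not at hB
      have hK : (50 : ℝ) ≤ 2 ^ 320 := by
        calc (50 : ℝ) ≤ 2 ^ 6 := by norm_num
          _ ≤ 2 ^ 320 := pow_le_pow_right₀ (by norm_num) (by norm_num)
      have hua : u ≤ a := by omega
      have ha5 : 5 ≤ a := by omega
      obtain ⟨y, 𝒢, h1, h2, h3, h4, h5⟩ := regimeC hx0 hK hu hua ha5 𝓢 h𝓢 (regimeC_num hu hB) hM
      refine ⟨y, 𝒢, h1, h2, ?_, ?_, ?_, fun h => absurd h (by omega)⟩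
      · refine h3.trans ?_
        rw [div_eq_mul_one_div M 2, mul_comm (25 / 2 ^ 320) M]
        apply mul_le_mul_of_nonneg_left _ hM0
        rw [div_le_div_iff₀ (by positivity) (by norm_num)]
        have h7 : (25 : ℝ) * 2 ≤ 2 ^ 6 := by norm_num
        have h6 : (2 : ℝ) ^ 6 ≤ 2 ^ 320 := pow_le_pow_right₀ (by norm_num) (by norm_num)
        rw [one_mul]
        exact h7.trans h6
      · refine h4.trans (add_le_add ?_ ?_)
        · apply div_le_div_of_nonneg_left hM0 (by positivity)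
          rw [← pow_mul]
          exact pow_le_pow_right₀ (by norm_num) (by omega)
        · have h6 : (1 / 4 : ℝ) ^ (5 * a) = 1 / 2 ^ (10 * a) := by
            rw [one_div, inv_pow, one_div]
            congr 1
            rw [show (4 : ℝ) = 2 ^ 2 by norm_num, ← pow_mul]
            congr 1
            ring
          rw [h6, ← pow_mul]
          have h7 : (4 : ℝ) * 2 ^ (a * 2) * (1 / 2 ^ (10 * a)) = 2 ^ (2 * a + 2) / 2 ^ (10 * a) := by
            rw [show 2 * a + 2 = a * 2 + 2 by ring, pow_add]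
            ring
          rw [h7, div_le_div_iff₀ (by positivity) (by positivity), one_mul, ← pow_add]
          exact pow_le_pow_right₀ (by norm_num) (by omega)
      · intro H hH
        refine (h5 H hH).trans ?_
        apply add_le_add _ le_rfl
        rw [mul_div_assoc, ← pow_mul, mul_comm]
        set L := M + 1 / ((a : ℝ) + 1) ^ 2 with hL
        have hL0 : 0 ≤ L := by positivity
        rw [div_mul_eq_mul_div, div_le_div_iff₀ (by positivity) (by positivity)]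
        have h6 : (13 : ℝ) * 2 ^ (u + 3) ≤ 2 ^ (320 * u) := by
          have h7 : (2 : ℝ) ^ (320 * u) = 2 ^ 4 * 2 ^ (u + 3) * 2 ^ (319 * u - 7) := by
            rw [← pow_add, ← pow_add]
            congr 1
            omega
          rw [h7]
          have h8 : (1 : ℝ) ≤ 2 ^ (319 * u - 7) := one_le_pow₀ (by norm_num)
          have h9 : (0 : ℝ) < 2 ^ (u + 3) := by positivity
          nlinarith
        nlinarith

end Vale.Agent.Lib.P034Univ
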